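import Mathlib

set_option linter.unusedSimpArgs false

/-! Purely algebraic and metric lemmas: traces of nearby idempotents agree. -/

namespace Vale.Agent.Lib.P184

section Algebra
variable {S : Type*} [Ring S]

/-- For idempotents `e`, `f` and a trace `T`, one has `T e - T f = T ((e - f) ^ (2k+1))`. -/
theorem trace_diff_pow (T : S →+ ℂ) (hT : ∀ x y, T (x * y) = T (y * x)) {e f : S}
    (he : e * e = e) (hf : f * f = f) (k : ℕ) :
    T e - T f = T ((e - f) ^ (2 * k + 1)) := by
  set x := e - f with hx
  set z := x * x with hz
  have hze : z * e = e * z := by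
    have : z = e + f - e * f - f * e := by
      simp only [hz, hx, sub_mul, mul_sub, he, hf]; abel
    rw [this]
    simp only [sub_mul, mul_sub, add_mul, mul_add, he, hf, mul_assoc]
    simp only [← mul_assoc, he, hf]
    abel
  have hzf : z * f = f * z := by
    have : z = e + f - e * f - f * e := by
      simp only [hz, hx, sub_mul, mul_sub, he, hf]; abel
    rw [this]
    simp only [sub_mul, mul_sub, add_mul, mul_add, he, hf, mul_assoc]
    simp only [← mul_assoc, he, hf]
    abel
  have hpow : ∀ m : ℕ, x ^ (2 * m + 1) = x * z ^ m := by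
    intro m
    induction m with
    | zero => simp
    | succ m ih =>
      have : 2 * (m + 1) + 1 = (2 * m + 1) + 2 := by ring
      rw [this, pow_add, ih, pow_two, pow_succ z m, mul_assoc]
  have hxz : x * z - x = f * e * f - e * f * e := by
    have hz' : z = e + f - e * f - f * e := by
      simp only [hz, hx, sub_mul, mul_sub, he, hf]; abel
    rw [hz', hx]
    simp only [sub_mul, mul_sub, add_mul, mul_add, he, hf, mul_assoc]
    simp only [← mul_assoc, he, hf]
    abel
  have hcomm : ∀ m : ℕ, T (x * z ^ (m + 1)) = T (x * z ^ m) := by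
    intro m
    set w := z ^ m with hw
    have hwe : w * e = e * w := by
      have : Commute z e := hze
      exact (this.pow_left m).eq
    have hwf : w * f = f * w := by
      have : Commute z f := hzf
      exact (this.pow_left m).eq
    have h1 : x * z ^ (m + 1) - x * z ^ m = (f * e * f - e * f * e) * w := by
      rw [← hxz, pow_succ' z m]
      simp only [sub_mul, mul_assoc]
      rfl
    have h2 : T (f * e * f * w) = T (e * w * f) := by
      have : f * e * f * w = f * (e * w * f) := by
        simp only [mul_assoc, hwf]
      rw [this, hT]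
      simp only [mul_assoc, hf]
    have h3 : T (e * f * e * w) = T (e * w * f) := by
      have : e * f * e * w = e * (f * w * e) := by
        simp only [mul_assoc, hwe]
      rw [this, hT]
      have : f * w * e * e = f * (w * e) := by
        simp only [mul_assoc, he]
      rw [this, hT, hwe]
    have h4 : T (x * z ^ (m + 1)) - T (x * z ^ m) = 0 := by
      rw [← map_sub, h1, sub_mul, map_sub, h2, h3, sub_self]
    exact sub_eq_zero.mp h4
  have hall : ∀ m : ℕ, T (x * z ^ m) = T x := by
    intro m
    induction m with
    | zero => simp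
    | succ m ih => rw [hcomm, ih]
  rw [hpow, hall, ← map_sub]

/-- Idempotents at submultiplicative distance less than one have the same trace. -/
theorem trace_eq_of_close (T : S →+ ℂ) (hT : ∀ x y, T (x * y) = T (y * x))
    (N : S → ℝ) (hN0 : ∀ x, 0 ≤ N x) (hNmul : ∀ x y, N (x * y) ≤ N x * N y)
    (hbound : ∀ x, ‖T x‖ ≤ N x) {e f : S} (he : e * e = e) (hf : f * f = f)
    (hclose : N (e - f) < 1) : T e = T f := by
  have hpow : ∀ m : ℕ, N ((e - f) ^ (m + 1)) ≤ N (e - f) ^ (m + 1) := by
    intro m
    induction m with
    | zero => simp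
    | succ m ih =>
      rw [pow_succ, pow_succ (N (e - f))]
      exact (hNmul _ _).trans (mul_le_mul_of_nonneg_right ih (hN0 _))
  have hle : ∀ k : ℕ, ‖T e - T f‖ ≤ N (e - f) ^ (2 * k + 1) := by
    intro k
    rw [trace_diff_pow T hT he hf k]
    exact (hbound _).trans (hpow (2 * k))
  have hlim : Filter.Tendsto (fun k : ℕ => N (e - f) ^ (2 * k + 1)) Filter.atTop (nhds 0) := by
    have h0 := tendsto_pow_atTop_nhds_zero_of_lt_one (hN0 (e - f)) hclose
    have : Filter.Tendsto (fun k : ℕ => 2 * k + 1) Filter.atTop Filter.atTop :=
      Filter.tendsto_atTop_mono (fun k => by simp only [id]; omega) Filter.tendsto_id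
    exact h0.comp this
  have h0 : ‖T e - T f‖ ≤ 0 := ge_of_tendsto' hlim hle
  have := norm_le_zero_iff.mp h0
  exact sub_eq_zero.mp this

end Algebra

end Vale.Agent.Lib.P184
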