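import Mathlib

set_option linter.unusedSimpArgs false
set_option linter.unusedVariables false

/-! The McShane extension of a homomorphism on a centralizer, and the associated cochain. -/

namespace Vale.Agent.Lib.P184

variable {G : Type*} [Group G]

/-- A length function on a group. -/
structure IsLen (L : G → ℝ) : Prop where
  one : L 1 = 0
  inv : ∀ x, L x⁻¹ = L x
  mul : ∀ x y, L (x * y) ≤ L x + L y

lemma IsLen.nonneg {L : G → ℝ} (hL : IsLen L) (x : G) : 0 ≤ L x := by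
  have h := hL.mul x x⁻¹
  rw [mul_inv_cancel, hL.one, hL.inv] at h
  linarith

variable {g₀ : G} {L : G → ℝ} {ψ : Subgroup.centralizer ({g₀} : Set G) → ℝ}

/-- The largest `L`-Lipschitz extension of `ψ` that is right-equivariant. -/
noncomputable def mcS (L : G → ℝ) (ψ : Subgroup.centralizer ({g₀} : Set G) → ℝ) (y : G) : ℝ :=
  ⨅ h : Subgroup.centralizer ({g₀} : Set G), (ψ h + L (y * (h : G)⁻¹))

lemma psi_one (hψ : ∀ a b, ψ (a * b) = ψ a + ψ b) : ψ 1 = 0 := by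
  have := hψ 1 1
  rw [mul_one] at this
  linarith

lemma psi_inv (hψ : ∀ a b, ψ (a * b) = ψ a + ψ b) (a) : ψ a⁻¹ = - ψ a := by
  have := hψ a a⁻¹
  rw [mul_inv_cancel, psi_one hψ] at this
  linarith

lemma mcS_bdd (hL : IsLen L) (hψL : ∀ a, |ψ a| ≤ L a) (y : G) :
    BddBelow (Set.range fun h : Subgroup.centralizer ({g₀} : Set G) => ψ h + L (y * (h : G)⁻¹)) := by
  refine ⟨- L y, ?_⟩
  rintro _ ⟨h, rfl⟩
  have h1 : - L h ≤ ψ h := (abs_le.mp (hψL h)).1
  have h2 : L ((h : G)⁻¹) ≤ L y⁻¹ + L (y * (h : G)⁻¹) := by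
    have := hL.mul y⁻¹ (y * (h : G)⁻¹)
    rwa [inv_mul_cancel_left] at this
  rw [hL.inv, hL.inv] at h2
  simp only
  linarith

lemma mcS_le (hL : IsLen L) (hψL : ∀ a, |ψ a| ≤ L a) (y : G) (h) :
    mcS L ψ y ≤ ψ h + L (y * (h : G)⁻¹) :=
  ciInf_le (mcS_bdd hL hψL y) h

lemma le_mcS {y : G} {c : ℝ}
    (hc : ∀ h : Subgroup.centralizer ({g₀} : Set G), c ≤ ψ h + L (y * (h : G)⁻¹)) :
    c ≤ mcS L ψ y :=
  le_ciInf hc

lemma mcS_mul_right (hL : IsLen L) (hψ : ∀ a b, ψ (a * b) = ψ a + ψ b) (hψL : ∀ a, |ψ a| ≤ L a)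
    (y : G) (k : Subgroup.centralizer ({g₀} : Set G)) :
    mcS L ψ (y * (k : G)) = mcS L ψ y + ψ k := by
  apply le_antisymm
  · have : mcS L ψ (y * (k : G)) - ψ k ≤ mcS L ψ y := by
      apply le_mcS
      intro h
      have h1 := mcS_le hL hψL (y * (k : G)) (h * k)
      rw [hψ] at h1
      have h2 : y * (k : G) * ((h * k : Subgroup.centralizer ({g₀} : Set G)) : G)⁻¹ = y * (h : G)⁻¹ := by
        simp [mul_assoc]
      rw [h2] at h1
      linarith
    linarith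
  · have : mcS L ψ y + ψ k ≤ mcS L ψ (y * (k : G)) := by
      apply le_mcS
      intro h
      have h1 := mcS_le hL hψL y (h * k⁻¹)
      rw [hψ, psi_inv hψ] at h1
      have h2 : y * ((h * k⁻¹ : Subgroup.centralizer ({g₀} : Set G)) : G)⁻¹ = y * (k : G) * (h : G)⁻¹ := by
        simp [mul_assoc]
      rw [h2] at h1
      linarith
    exact this

lemma mcS_mul_left_le (hL : IsLen L) (hψL : ∀ a, |ψ a| ≤ L a) (x y : G) :
    mcS L ψ (x * y) ≤ L x + mcS L ψ y := by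
  have : mcS L ψ (x * y) - L x ≤ mcS L ψ y := by
    apply le_mcS
    intro h
    have h1 := mcS_le hL hψL (x * y) h
    have h2 := hL.mul x (y * (h : G)⁻¹)
    rw [← mul_assoc] at h2
    linarith
  linarith

lemma abs_mcS_sub_le (hL : IsLen L) (hψL : ∀ a, |ψ a| ≤ L a) (x y : G) :
    |mcS L ψ (x * y) - mcS L ψ y| ≤ L x := by
  rw [abs_le]
  constructor
  · have := mcS_mul_left_le hL hψL x⁻¹ (x * y)
    rw [inv_mul_cancel_left, hL.inv] at this
    linarith
  · have := mcS_mul_left_le hL hψL x y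
    linarith

open Classical in
/-- The cochain attached to `ψ`: for `x * y` conjugate to `g₀`, it is
`F (y * w) - F w` where `w` conjugates `g₀` to `x * y`; it vanishes otherwise. -/
noncomputable def phi (g₀ : G) (L : G → ℝ) (ψ : Subgroup.centralizer ({g₀} : Set G) → ℝ) (x y : G) : ℝ :=
  if h : IsConj g₀ (x * y) then
    mcS L ψ (y * Classical.choose (isConj_iff.mp h)) - mcS L ψ (Classical.choose (isConj_iff.mp h))
  else 0

lemma phi_eq (hL : IsLen L) (hψ : ∀ a b, ψ (a * b) = ψ a + ψ b) (hψL : ∀ a, |ψ a| ≤ L a)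
    {x y w : G} (hw : w * g₀ * w⁻¹ = x * y) :
    phi g₀ L ψ x y = mcS L ψ (y * w) - mcS L ψ w := by
  have hc : IsConj g₀ (x * y) := isConj_iff.mpr ⟨w, hw⟩
  unfold phi
  rw [dif_pos hc]
  set w' := Classical.choose (isConj_iff.mp hc) with hw'
  have hw'2 : w' * g₀ * w'⁻¹ = x * y := Classical.choose_spec (isConj_iff.mp hc)
  -- `w⁻¹ * w'` centralizes `g₀`
  have hk : (w⁻¹ * w') ∈ Subgroup.centralizer ({g₀} : Set G) := by
    rw [Subgroup.mem_centralizer_singleton_iff]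
    have h1 : w' * g₀ * w'⁻¹ = w * g₀ * w⁻¹ := by rw [hw, hw'2]
    have h2 : w' * g₀ = w * g₀ * w⁻¹ * w' := by
      rw [← h1]; group
    calc w⁻¹ * w' * g₀ = w⁻¹ * (w' * g₀) := by group
      _ = w⁻¹ * (w * g₀ * w⁻¹ * w') := by rw [h2]
      _ = g₀ * (w⁻¹ * w') := by group
  let k : Subgroup.centralizer ({g₀} : Set G) := ⟨w⁻¹ * w', hk⟩
  have e1 : w' = w * (k : G) := by simp [k]
  have e2 : y * w' = y * w * (k : G) := by rw [e1, mul_assoc]
  rw [e2, e1, mcS_mul_right hL hψ hψL, mcS_mul_right hL hψ hψL]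
  ring

lemma phi_not_conj {x y : G} (h : ¬ IsConj g₀ (x * y)) : phi g₀ L ψ x y = 0 := by
  unfold phi
  rw [dif_neg h]

lemma abs_phi_le (hL : IsLen L) (hψL : ∀ a, |ψ a| ≤ L a) (x y : G) :
    |phi g₀ L ψ x y| ≤ L y := by
  unfold phi
  split_ifs with h
  · exact abs_mcS_sub_le hL hψL _ _
  · simpa using hL.nonneg y

lemma phi_cocycle (hL : IsLen L) (hψ : ∀ a b, ψ (a * b) = ψ a + ψ b) (hψL : ∀ a, |ψ a| ≤ L a)
    (x y z : G) : phi g₀ L ψ (x * y) z - phi g₀ L ψ x (y * z) + phi g₀ L ψ (z * x) y = 0 := by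
  by_cases hc : IsConj g₀ (x * y * z)
  · obtain ⟨w, hw⟩ := isConj_iff.mp hc
    have h1 : phi g₀ L ψ (x * y) z = mcS L ψ (z * w) - mcS L ψ w := phi_eq hL hψ hψL hw
    have h2 : phi g₀ L ψ x (y * z) = mcS L ψ (y * z * w) - mcS L ψ w :=
      phi_eq hL hψ hψL (by rw [hw, mul_assoc])
    have h3 : phi g₀ L ψ (z * x) y = mcS L ψ (y * (z * w)) - mcS L ψ (z * w) := by
      apply phi_eq hL hψ hψL
      calc z * w * g₀ * (z * w)⁻¹ = z * (w * g₀ * w⁻¹) * z⁻¹ := by group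
        _ = z * x * y := by rw [hw]; group
    rw [h1, h2, h3, mul_assoc y z w]
    ring
  · have h1 : ¬ IsConj g₀ (x * (y * z)) := by rwa [← mul_assoc]
    have h2 : ¬ IsConj g₀ (z * x * y) := by
      intro h
      apply hc
      refine h.trans ?_
      rw [isConj_iff]
      exact ⟨z⁻¹, by group⟩
    rw [phi_not_conj hc, phi_not_conj h1, phi_not_conj h2]
    ring

lemma phi_one_left (hL : IsLen L) (hψ : ∀ a b, ψ (a * b) = ψ a + ψ b) (hψL : ∀ a, |ψ a| ≤ L a)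
    (hg : g₀ ∈ Subgroup.centralizer ({g₀} : Set G)) (y : G) (hy : IsConj g₀ y) :
    phi g₀ L ψ 1 y = ψ ⟨g₀, hg⟩ := by
  obtain ⟨w, hw⟩ := isConj_iff.mp hy
  rw [phi_eq hL hψ hψL (x := 1) (y := y) (w := w) (by rw [hw, one_mul])]
  have h1 : y * w = w * g₀ := by rw [← hw]; group
  rw [h1]
  have := mcS_mul_right hL hψ hψL w ⟨g₀, hg⟩
  simp only at this
  rw [this]
  ring

end Vale.Agent.Lib.P184
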