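import Mathlib
import Vale.Agent.Lib.P184.Algebra

set_option linter.unusedSimpArgs false
set_option linter.unusedVariables false

open scoped BigOperators Topology
open Filter

/-! The convolution ring of absolutely summable functions on a group. -/

namespace Vale.Agent.Lib.P184

variable {G : Type*}

/-- The additive group of absolutely summable complex functions on `G`. -/
def l1 (G : Type*) : AddSubgroup (G → ℂ) where
  carrier := {a | Summable fun g => ‖a g‖}
  add_mem' := by
    intro a b ha hb
    exact Summable.of_nonneg_of_le (fun g => norm_nonneg _) (fun g => norm_add_le _ _) (Summable.add ha hb)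
  zero_mem' := by
    simp only [Set.mem_ofPred_eq, Pi.zero_apply, norm_zero]
    exact summable_zero
  neg_mem' := by
    intro a ha
    simpa only [Set.mem_ofPred_eq, Pi.neg_apply, norm_neg] using ha

/-- The `ℓ¹`-norm of a function. -/
noncomputable def l1n (a : G → ℂ) : ℝ := ∑' g, ‖a g‖

lemma l1n_nonneg (a : G → ℂ) : 0 ≤ l1n a := tsum_nonneg fun _ => norm_nonneg _

lemma norm_le_l1n {a : G → ℂ} (ha : Summable fun g => ‖a g‖) (g : G) : ‖a g‖ ≤ l1n a :=
  ha.le_tsum g (fun _ _ => norm_nonneg _)

lemma l1n_add_le {a b : G → ℂ} (ha : Summable fun g => ‖a g‖) (hb : Summable fun g => ‖b g‖) :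
    l1n (a + b) ≤ l1n a + l1n b := by
  unfold l1n
  rw [← ha.tsum_add hb]
  exact Summable.tsum_le_tsum (fun g => norm_add_le _ _)
    (Summable.of_nonneg_of_le (fun g => norm_nonneg _) (fun g => norm_add_le _ _) (ha.add hb))
    (ha.add hb)

variable [Group G]

/-- Convolution. -/
noncomputable def cv (a b : G → ℂ) (g : G) : ℂ := ∑' h, a h * b (h⁻¹ * g)

/-- The shear bijection of `G × G`. -/
def shear (G : Type*) [Group G] : G × G ≃ G × G where
  toFun p := (p.1 * p.2, p.1)
  invFun q := (q.2, q.2⁻¹ * q.1)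
  left_inv p := by simp
  right_inv q := by simp

lemma summable_pair {a b : G → ℂ} (ha : Summable fun g => ‖a g‖) (hb : Summable fun g => ‖b g‖) :
    Summable fun p : G × G => ‖a p.1‖ * ‖b p.2‖ :=
  ha.mul_of_nonneg hb (fun _ => norm_nonneg _) (fun _ => norm_nonneg _)

lemma summable_sheared {a b : G → ℂ} (ha : Summable fun g => ‖a g‖) (hb : Summable fun g => ‖b g‖) :
    Summable fun q : G × G => ‖a q.2‖ * ‖b (q.2⁻¹ * q.1)‖ := by
  have h := summable_pair ha hb
  rw [← (shear G).summable_iff]
  refine h.congr ?_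
  intro p
  simp [shear]

lemma summable_fiber {a b : G → ℂ} (ha : Summable fun g => ‖a g‖) (hb : Summable fun g => ‖b g‖)
    (g : G) : Summable fun h => ‖a h * b (h⁻¹ * g)‖ := by
  have := (summable_sheared ha hb).prod_factor g
  simpa only [norm_mul] using this

lemma summable_cv {a b : G → ℂ} (ha : Summable fun g => ‖a g‖) (hb : Summable fun g => ‖b g‖) :
    Summable fun g => ‖cv a b g‖ := by
  have h := (summable_sheared ha hb).prod
  refine Summable.of_nonneg_of_le (fun g => norm_nonneg _) (fun g => ?_) h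
  have := norm_tsum_le_tsum_norm (summable_fiber ha hb g)
  simpa only [cv, norm_mul] using this

lemma l1n_cv_le {a b : G → ℂ} (ha : Summable fun g => ‖a g‖) (hb : Summable fun g => ‖b g‖) :
    l1n (cv a b) ≤ l1n a * l1n b := by
  have h := (summable_sheared ha hb).prod
  have h1 : l1n (cv a b) ≤ ∑' g, ∑' h, ‖a h‖ * ‖b (h⁻¹ * g)‖ := by
    refine Summable.tsum_le_tsum (fun g => ?_) (summable_cv ha hb) h
    have := norm_tsum_le_tsum_norm (summable_fiber ha hb g)
    simpa only [cv, norm_mul] using this
  have h2 : ∑' g, ∑' h, ‖a h‖ * ‖b (h⁻¹ * g)‖ = ∑' q : G × G, ‖a q.2‖ * ‖b (q.2⁻¹ * q.1)‖ :=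
    ((summable_sheared ha hb).tsum_prod).symm
  have h3 : ∑' q : G × G, ‖a q.2‖ * ‖b (q.2⁻¹ * q.1)‖ = ∑' p : G × G, ‖a p.1‖ * ‖b p.2‖ := by
    rw [← (shear G).tsum_eq]
    refine tsum_congr ?_
    intro p
    simp [shear]
  have h4 : ∑' p : G × G, ‖a p.1‖ * ‖b p.2‖ = l1n a * l1n b := by
    unfold l1n
    rw [ha.tsum_mul_tsum hb (summable_pair ha hb)]
  linarith

lemma cv_assoc {a b c : G → ℂ} (ha : Summable fun g => ‖a g‖) (hb : Summable fun g => ‖b g‖)
    (hc : Summable fun g => ‖c g‖) : cv (cv a b) c = cv a (cv b c) := by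
  funext g
  -- the common double sum
  let F : G × G → ℂ := fun p => a p.1 * b p.2 * c ((p.1 * p.2)⁻¹ * g)
  have hF : Summable fun p => ‖F p‖ := by
    refine Summable.of_nonneg_of_le (fun _ => norm_nonneg _) (fun p => ?_)
      ((summable_pair ha hb).mul_right (l1n c))
    simp only [F, norm_mul]
    exact mul_le_mul_of_nonneg_left (norm_le_l1n hc _) (by positivity)
  have hF' : Summable F := hF.of_norm
  -- right side
  have hR : cv a (cv b c) g = ∑' p, F p := by
    rw [hF'.tsum_prod]
    unfold cv
    refine tsum_congr fun k => ?_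
    rw [← tsum_mul_left]
    refine tsum_congr fun l => ?_
    simp only [F, mul_inv_rev, mul_assoc]
  -- left side: reindex by (h,k) ↦ (k, k⁻¹ h)
  let ι : G × G ≃ G × G :=
    { toFun := fun q => (q.2, q.2⁻¹ * q.1)
      invFun := fun p => (p.1 * p.2, p.1)
      left_inv := by intro q; simp
      right_inv := by intro p; simp }
  have hF2 : Summable (F ∘ ι) := ι.summable_iff.mpr hF'
  have hL : cv (cv a b) c g = ∑' p, F p := by
    rw [← ι.tsum_eq F]
    have : (∑' q, F (ι q)) = ∑' h, ∑' k, F (ι (h, k)) := hF2.tsum_prod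
    rw [this]
    unfold cv
    refine tsum_congr fun h => ?_
    rw [← tsum_mul_right]
    refine tsum_congr fun k => ?_
    simp [F, ι]
  rw [hL, hR]

lemma cv_add_left {a b c : G → ℂ} (ha : Summable fun g => ‖a g‖) (hb : Summable fun g => ‖b g‖)
    (hc : Summable fun g => ‖c g‖) : cv (a + b) c = cv a c + cv b c := by
  funext g
  simp only [cv, Pi.add_apply, add_mul]
  exact (Summable.of_norm (summable_fiber ha hc g)).tsum_add (Summable.of_norm (summable_fiber hb hc g))

lemma cv_add_right {a b c : G → ℂ} (ha : Summable fun g => ‖a g‖) (hb : Summable fun g => ‖b g‖)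
    (hc : Summable fun g => ‖c g‖) : cv a (b + c) = cv a b + cv a c := by
  funext g
  simp only [cv, Pi.add_apply, mul_add]
  exact (Summable.of_norm (summable_fiber ha hb g)).tsum_add (Summable.of_norm (summable_fiber ha hc g))

open Classical in
/-- The delta function at the identity. -/
noncomputable def dl (G : Type*) [Group G] : G → ℂ := fun g => if g = 1 then 1 else 0

lemma summable_dl : Summable fun g => ‖dl G g‖ := by
  classical
  refine summable_of_hasFiniteSupport ?_
  refine (Set.finite_singleton (1 : G)).subset ?_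
  intro g hg
  by_contra hne
  simp only [Set.mem_singleton_iff] at hne
  simp [dl, hne] at hg

lemma cv_dl_right (a : G → ℂ) : cv a (dl G) = a := by
  classical
  funext g
  unfold cv
  rw [tsum_eq_single g]
  · simp [dl]
  · intro h hh
    have : h⁻¹ * g ≠ 1 := by
      intro h1
      apply hh
      exact inv_mul_eq_one.mp h1
    simp [dl, this]

lemma cv_dl_left (a : G → ℂ) : cv (dl G) a = a := by
  classical
  funext g
  unfold cv
  rw [tsum_eq_single 1]
  · simp [dl]
  · intro h hh
    simp [dl, hh]

lemma cv_zero_left (a : G → ℂ) : cv (0 : G → ℂ) a = 0 := by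
  funext g; simp [cv]

lemma cv_zero_right (a : G → ℂ) : cv a (0 : G → ℂ) = 0 := by
  funext g; simp [cv]

/-- The convolution ring structure on `l1 G`. -/
noncomputable instance : Ring (l1 G) :=
  { (inferInstance : AddCommGroup (l1 G)) with
    mul := fun a b => ⟨cv a.1 b.1, summable_cv a.2 b.2⟩
    one := ⟨dl G, summable_dl⟩
    left_distrib := by
      intro a b c
      exact Subtype.ext (cv_add_right a.2 b.2 c.2)
    right_distrib := by
      intro a b c
      exact Subtype.ext (cv_add_left a.2 b.2 c.2)
    zero_mul := by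
      intro a
      exact Subtype.ext (cv_zero_left a.1)
    mul_zero := by
      intro a
      exact Subtype.ext (cv_zero_right a.1)
    mul_assoc := by
      intro a b c
      exact Subtype.ext (cv_assoc a.2 b.2 c.2)
    one_mul := by
      intro a
      exact Subtype.ext (cv_dl_left a.1)
    mul_one := by
      intro a
      exact Subtype.ext (cv_dl_right a.1) }

lemma l1_mul_coe (a b : l1 G) : ((a * b : l1 G) : G → ℂ) = cv a.1 b.1 := rfl

/-- The class-sum functional. -/
noncomputable def clsTr (C : Set G) : l1 G →+ ℂ where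
  toFun a := ∑' g, C.indicator a.1 g
  map_zero' := by
    simp
  map_add' := by
    intro a b
    have ha : Summable (C.indicator a.1) := (Summable.of_norm a.2).indicator C
    have hb : Summable (C.indicator b.1) := (Summable.of_norm b.2).indicator C
    rw [← ha.tsum_add hb]
    refine tsum_congr fun g => ?_
    simp only [AddSubgroup.coe_add]
    exact congrFun (Set.indicator_add C a.1 b.1) g

lemma clsTr_apply (C : Set G) (a : l1 G) : clsTr C a = ∑' g, C.indicator a.1 g := rfl

lemma norm_clsTr_le (C : Set G) (a : l1 G) : ‖clsTr C a‖ ≤ l1n a.1 := by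
  rw [clsTr_apply]
  have hs : Summable fun g => ‖C.indicator a.1 g‖ :=
    Summable.of_nonneg_of_le (fun _ => norm_nonneg _)
      (fun g => norm_indicator_le_norm_self a.1 g) a.2
  refine (norm_tsum_le_tsum_norm hs).trans ?_
  exact Summable.tsum_le_tsum (fun g => norm_indicator_le_norm_self a.1 g) hs a.2

lemma clsTr_mul_eq (C : Set G) (a b : l1 G) :
    clsTr C (a * b) =
      ∑' p : G × G, ({p : G × G | p.1 * p.2 ∈ C}).indicator (fun p => a.1 p.1 * b.1 p.2) p := by
  classical
  set P : G × G → ℂ := ({p : G × G | p.1 * p.2 ∈ C}).indicator (fun p => a.1 p.1 * b.1 p.2) with hP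
  have hs0 : Summable fun p : G × G => a.1 p.1 * b.1 p.2 := by
    refine Summable.of_norm ?_
    simpa only [norm_mul] using summable_pair a.2 b.2
  have hsP : Summable P := hs0.indicator _
  have hsQ : Summable (P ∘ (shear G).symm) := (shear G).symm.summable_iff.mpr hsP
  rw [← (shear G).symm.tsum_eq P]
  have : (∑' q, P ((shear G).symm q)) = ∑' g, ∑' h, P ((shear G).symm (g, h)) := hsQ.tsum_prod
  rw [this, clsTr_apply]
  refine tsum_congr fun g => ?_
  rw [l1_mul_coe]
  by_cases hg : g ∈ C
  · rw [Set.indicator_of_mem hg]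
    unfold cv
    refine tsum_congr fun h => ?_
    have hmem : (shear G).symm (g, h) ∈ {p : G × G | p.1 * p.2 ∈ C} := by
      simp [shear, hg]
    rw [hP, Set.indicator_of_mem hmem]
    simp [shear]
  · rw [Set.indicator_of_notMem hg]
    symm
    convert tsum_zero with h
    have hmem : (shear G).symm (g, h) ∉ {p : G × G | p.1 * p.2 ∈ C} := by
      simp [shear, hg]
    rw [hP, Set.indicator_of_notMem hmem]

lemma clsTr_comm (C : Set G) (hC : ∀ x y, x * y ∈ C → y * x ∈ C) (a b : l1 G) :
    clsTr C (a * b) = clsTr C (b * a) := by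
  rw [clsTr_mul_eq, clsTr_mul_eq, ← (Equiv.prodComm G G).tsum_eq]
  refine tsum_congr fun p => ?_
  have hiff : p ∈ {p : G × G | p.1 * p.2 ∈ C} ↔ (Equiv.prodComm G G) p ∈ {p : G × G | p.1 * p.2 ∈ C} := by
    simp only [Set.mem_ofPred_eq, Equiv.prodComm_apply, Prod.fst_swap, Prod.snd_swap]
    exact ⟨hC _ _, hC _ _⟩
  by_cases hp : p ∈ {p : G × G | p.1 * p.2 ∈ C}
  · rw [Set.indicator_of_mem hp, Set.indicator_of_mem (hiff.mp hp)]
    simp [mul_comm]
  · rw [Set.indicator_of_notMem hp, Set.indicator_of_notMem (fun h => hp (hiff.mpr h))]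

end Vale.Agent.Lib.P184
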