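import Mathlib
import Vale.Agent.Lib.P184.Conv

set_option linter.unusedSimpArgs false
set_option linter.unusedVariables false
set_option linter.unusedSectionVars false

open scoped BigOperators Topology
open Filter

namespace Vale.Agent.Lib.P184

variable {G : Type*} [Group G]

section MatrixLevel
variable {I : Type*} [Fintype I] [DecidableEq I]

/-- Total norm on matrices over `l1 G`. -/
noncomputable def matN (M : Matrix I I (l1 G)) : ℝ := ∑ p, ∑ p', l1n (M p p').1

lemma matN_nonneg (M : Matrix I I (l1 G)) : 0 ≤ matN M :=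
  Finset.sum_nonneg fun _ _ => Finset.sum_nonneg fun _ _ => l1n_nonneg _

lemma l1_coe_sum {J : Type*} (s : Finset J) (f : J → l1 G) :
    ((∑ r ∈ s, f r : l1 G) : G → ℂ) = ∑ r ∈ s, (f r : G → ℂ) :=
  map_sum (l1 G).subtype f s

lemma l1n_sum_le {J : Type*} (s : Finset J) (f : J → l1 G) :
    l1n ((∑ r ∈ s, f r : l1 G) : G → ℂ) ≤ ∑ r ∈ s, l1n (f r : G → ℂ) := by
  classical
  induction s using Finset.induction_on with
  | empty => simp [l1n]
  | insert a s ha ih =>
    rw [Finset.sum_insert ha, Finset.sum_insert ha]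
    have : ((f a + ∑ r ∈ s, f r : l1 G) : G → ℂ) = (f a : G → ℂ) + ((∑ r ∈ s, f r : l1 G) : G → ℂ) := rfl
    rw [this]
    refine (l1n_add_le (f a).2 (∑ r ∈ s, f r).2).trans ?_
    linarith

lemma matN_mul_le (M M' : Matrix I I (l1 G)) : matN (M * M') ≤ matN M * matN M' := by
  unfold matN
  set B : ℝ := ∑ r, ∑ p', l1n (M' r p').1 with hB
  have hB0 : ∀ r, ∑ p', l1n (M' r p').1 ≤ B := fun r =>
    Finset.single_le_sum (f := fun r => ∑ p', l1n (M' r p').1)
      (fun r _ => Finset.sum_nonneg fun _ _ => l1n_nonneg _) (Finset.mem_univ r)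
  have hstep : ∀ p, ∑ p', l1n ((M * M') p p').1 ≤ (∑ r, l1n (M p r).1) * B := by
    intro p
    calc ∑ p', l1n ((M * M') p p').1
        ≤ ∑ p', ∑ r, l1n (M p r).1 * l1n (M' r p').1 := by
          refine Finset.sum_le_sum fun p' _ => ?_
          rw [Matrix.mul_apply]
          refine (l1n_sum_le _ _).trans ?_
          refine Finset.sum_le_sum fun r _ => ?_
          exact l1n_cv_le (M p r).2 (M' r p').2
      _ = ∑ r, l1n (M p r).1 * ∑ p', l1n (M' r p').1 := by
          rw [Finset.sum_comm]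
          refine Finset.sum_congr rfl fun r _ => ?_
          rw [Finset.mul_sum]
      _ ≤ ∑ r, l1n (M p r).1 * B := by
          refine Finset.sum_le_sum fun r _ => ?_
          exact mul_le_mul_of_nonneg_left (hB0 r) (l1n_nonneg _)
      _ = (∑ r, l1n (M p r).1) * B := by rw [Finset.sum_mul]
  calc ∑ p, ∑ p', l1n ((M * M') p p').1 ≤ ∑ p, (∑ r, l1n (M p r).1) * B :=
        Finset.sum_le_sum fun p _ => hstep p
    _ = (∑ p, ∑ p', l1n (M p p').1) * B := by rw [Finset.sum_mul]

/-- Trace functional on matrices over `l1 G`. -/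
noncomputable def matT (C : Set G) : Matrix I I (l1 G) →+ ℂ where
  toFun M := ∑ p, clsTr C (M p p)
  map_zero' := by simp
  map_add' := by
    intro a b
    simp [Finset.sum_add_distrib]

lemma matT_apply (C : Set G) (M : Matrix I I (l1 G)) : matT C M = ∑ p, clsTr C (M p p) := rfl

lemma matT_comm (C : Set G) (hC : ∀ x y, x * y ∈ C → y * x ∈ C) (M M' : Matrix I I (l1 G)) :
    matT C (M * M') = matT C (M' * M) := by
  simp only [matT_apply, Matrix.mul_apply, map_sum]
  rw [Finset.sum_comm]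
  refine Finset.sum_congr rfl fun p _ => Finset.sum_congr rfl fun r _ => ?_
  exact clsTr_comm C hC _ _

lemma norm_matT_le (C : Set G) (M : Matrix I I (l1 G)) : ‖matT C M‖ ≤ matN M := by
  rw [matT_apply]
  refine (norm_sum_le _ _).trans ?_
  unfold matN
  refine Finset.sum_le_sum fun p _ => ?_
  refine (norm_clsTr_le C (M p p)).trans ?_
  exact Finset.single_le_sum (f := fun p' => l1n (M p p').1)
    (fun _ _ => l1n_nonneg _) (Finset.mem_univ p)

theorem matT_eq_of_close (C : Set G) (hC : ∀ x y, x * y ∈ C → y * x ∈ C)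
    {E F : Matrix I I (l1 G)} (hE : E * E = E) (hF : F * F = F) (h : matN (E - F) < 1) :
    matT C E = matT C F :=
  trace_eq_of_close (S := Matrix I I (l1 G)) (matT C) (matT_comm C hC) matN matN_nonneg
    (fun x y => matN_mul_le x y) (norm_matT_le C) hE hF h

end MatrixLevel

section Twist
variable {q n : ℕ}

lemma summable_twist {a : G → ℂ} (ha : Summable fun g => ‖a g‖) {w : G → ℂ}
    (hw : ∀ g, ‖w g‖ ≤ 1) : Summable fun g => ‖a g * w g‖ := by
  refine Summable.of_nonneg_of_le (fun _ => norm_nonneg _) (fun g => ?_) ha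
  rw [norm_mul]
  exact mul_le_of_le_one_right (norm_nonneg _) (hw g)

/-- The twist `e ⊗ u` of a matrix over `ℓ¹(G)` by a matrix-valued function `u` on `G`. -/
noncomputable def tw (e : Fin q → Fin q → G → ℂ) (he : ∀ i j, Summable fun g => ‖e i j g‖)
    (u : G → Matrix (Fin n) (Fin n) ℂ) (hu : ∀ g a b, ‖u g a b‖ ≤ 1) :
    Matrix (Fin q × Fin n) (Fin q × Fin n) (l1 G) :=
  fun p p' => ⟨fun g => e p.1 p'.1 g * u g p.2 p'.2, summable_twist (he _ _) fun g => hu g _ _⟩

lemma tw_coe (e : Fin q → Fin q → G → ℂ) (he : ∀ i j, Summable fun g => ‖e i j g‖)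
    (u : G → Matrix (Fin n) (Fin n) ℂ) (hu : ∀ g a b, ‖u g a b‖ ≤ 1)
    (p p' : Fin q × Fin n) (g : G) :
    (tw e he u hu p p' : G → ℂ) g = e p.1 p'.1 g * u g p.2 p'.2 := rfl

theorem tw_idem (e : Fin q → Fin q → G → ℂ) (he : ∀ i j, Summable fun g => ‖e i j g‖)
    (hid : ∀ i j g, ∑ k, ∑' h, e i k h * e k j (h⁻¹ * g) = e i j g)
    (u : G → Matrix (Fin n) (Fin n) ℂ) (hu : ∀ g a b, ‖u g a b‖ ≤ 1)
    (hmul : ∀ h k, u (h * k) = u h * u k) :
    tw e he u hu * tw e he u hu = tw e he u hu := by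
  classical
  ext p p' g
  rcases p with ⟨i, a⟩
  rcases p' with ⟨j, b⟩
  rw [Matrix.mul_apply, tw_coe, l1_coe_sum, Finset.sum_apply]
  simp only [l1_mul_coe, cv, tw]
  rw [Fintype.sum_prod_type]
  -- the factor from `u`
  have hu2 : ∀ h, ∑ c, u h a c * u (h⁻¹ * g) c b = u g a b := by
    intro h
    have := hmul h (h⁻¹ * g)
    rw [mul_inv_cancel_left] at this
    rw [this, Matrix.mul_apply]
  have hsumm : ∀ k c, Summable fun h =>
      e i k h * u h a c * (e k j (h⁻¹ * g) * u (h⁻¹ * g) c b) := by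
    intro k c
    refine Summable.of_norm ?_
    refine Summable.of_nonneg_of_le (fun _ => norm_nonneg _) (fun h => ?_)
      (summable_fiber (he i k) (he k j) g)
    rw [norm_mul, norm_mul, norm_mul, norm_mul]
    have h1 := hu h a c
    have h2 := hu (h⁻¹ * g) c b
    calc ‖e i k h‖ * ‖u h a c‖ * (‖e k j (h⁻¹ * g)‖ * ‖u (h⁻¹ * g) c b‖)
        ≤ ‖e i k h‖ * 1 * (‖e k j (h⁻¹ * g)‖ * 1) := by gcongr
      _ = ‖e i k h‖ * ‖e k j (h⁻¹ * g)‖ := by ring
  have hk : ∀ k, ∑ c, ∑' h, e i k h * u h a c * (e k j (h⁻¹ * g) * u (h⁻¹ * g) c b)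
      = (∑' h, e i k h * e k j (h⁻¹ * g)) * u g a b := by
    intro k
    rw [← Summable.tsum_finsetSum (fun c _ => hsumm k c), ← tsum_mul_right]
    refine tsum_congr fun h => ?_
    rw [← hu2 h, Finset.mul_sum]
    refine Finset.sum_congr rfl fun c _ => ?_
    ring
  simp only [hk]
  rw [← Finset.sum_mul, hid]

/-- The trace of a twist on a conjugation-invariant set on which `tr u` is constant. -/
theorem matT_tw (e : Fin q → Fin q → G → ℂ) (he : ∀ i j, Summable fun g => ‖e i j g‖)
    (u : G → Matrix (Fin n) (Fin n) ℂ) (hu : ∀ g a b, ‖u g a b‖ ≤ 1)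
    (C : Set G) (t : ℂ) (ht : ∀ g ∈ C, Matrix.trace (u g) = t) :
    matT C (tw e he u hu) = t * ∑' g, C.indicator (fun g => ∑ i, e i i g) g := by
  classical
  rw [matT_apply, Fintype.sum_prod_type]
  have hsi : ∀ i, Summable (C.indicator (e i i)) := fun i =>
    (Summable.of_norm (he i i)).indicator C
  have hsia : ∀ i a, Summable (C.indicator (tw e he u hu (i, a) (i, a) : G → ℂ)) := fun i a =>
    (Summable.of_norm (tw e he u hu (i, a) (i, a)).2).indicator C
  have hind : ∀ g, C.indicator (fun g => ∑ i, e i i g) g = ∑ i, C.indicator (e i i) g := by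
    intro g
    by_cases hg : g ∈ C
    · simp only [Set.indicator_of_mem hg]
    · simp only [Set.indicator_of_notMem hg, Finset.sum_const_zero]
  simp only [hind]
  rw [Summable.tsum_finsetSum (fun i _ => hsi i), Finset.mul_sum]
  refine Finset.sum_congr rfl fun i _ => ?_
  simp only [clsTr_apply]
  rw [← Summable.tsum_finsetSum (fun a _ => hsia i a), ← tsum_mul_left]
  refine tsum_congr fun g => ?_
  by_cases hg : g ∈ C
  · simp only [Set.indicator_of_mem hg, tw_coe]
    rw [← Finset.mul_sum, ← ht g hg, Matrix.trace, mul_comm]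
    rfl
  · simp only [Set.indicator_of_notMem hg, Finset.sum_const_zero, mul_zero]

end Twist

section Path
variable {q n : ℕ}

/-- The general homotopy-invariance statement. -/
theorem trace_vanishes_of_deformation
    {X : Type*} [TopologicalSpace X] [PreconnectedSpace X]
    (e : Fin q → Fin q → G → ℂ) (he : ∀ i j, Summable fun g => ‖e i j g‖)
    (hid : ∀ i j g, ∑ k, ∑' h, e i k h * e k j (h⁻¹ * g) = e i j g)
    (ρ : X → G →* Matrix.unitaryGroup (Fin n) ℂ)
    (hρ : ∀ g, Continuous fun x => ((ρ x g : Matrix.unitaryGroup (Fin n) ℂ) : Matrix (Fin n) (Fin n) ℂ))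
    (g₀ : G) (x y : X)
    (hne : Matrix.trace ((ρ x g₀ : Matrix.unitaryGroup (Fin n) ℂ) : Matrix (Fin n) (Fin n) ℂ) ≠
      Matrix.trace ((ρ y g₀ : Matrix.unitaryGroup (Fin n) ℂ) : Matrix (Fin n) (Fin n) ℂ)) :
    ∑' g : {g // IsConj g₀ g}, ∑ i, e i i g = 0 := by
  classical
  set C : Set G := {g | IsConj g₀ g} with hCdef
  have hCconj : ∀ a b, a * b ∈ C → b * a ∈ C := by
    intro a b hab
    have h1 : IsConj (a * b) (b * a) := by
      rw [isConj_iff]
      exact ⟨b, by group⟩
    exact hab.trans h1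
  -- the matrix functions
  let u : X → G → Matrix (Fin n) (Fin n) ℂ := fun x g => ((ρ x g : Matrix.unitaryGroup (Fin n) ℂ) : Matrix (Fin n) (Fin n) ℂ)
  have hu : ∀ x g a b, ‖u x g a b‖ ≤ 1 := fun x g a b =>
    entry_norm_bound_of_unitary (ρ x g).2 a b
  have hmul : ∀ x h k, u x (h * k) = u x h * u x k := by
    intro x h k
    simp only [u, map_mul]
    rfl
  have hcls : ∀ x, ∀ g ∈ C, Matrix.trace (u x g) = Matrix.trace (u x g₀) := by
    intro x g hg
    rw [hCdef] at hg
    obtain ⟨c, hc⟩ := isConj_iff.mp hg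
    have hc' : g = c * g₀ * c⁻¹ := hc.symm
    subst hc'
    have h1 : u x (c * g₀ * c⁻¹) = u x c * u x g₀ * u x c⁻¹ := by
      rw [hmul, hmul]
    have h2 : u x c⁻¹ * u x c = 1 := by
      rw [← hmul]
      simp only [u, inv_mul_cancel, map_one]
      rfl
    rw [h1, Matrix.trace_mul_comm, ← Matrix.mul_assoc, h2, Matrix.one_mul]
  let E : X → Matrix (Fin q × Fin n) (Fin q × Fin n) (l1 G) := fun x => tw e he (u x) (hu x)
  have hE : ∀ x, E x * E x = E x := fun x => tw_idem e he hid (u x) (hu x) (hmul x)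
  let f : X → ℂ := fun x => matT C (E x)
  have hf : ∀ x, f x = Matrix.trace (u x g₀) * ∑' g, C.indicator (fun g => ∑ i, e i i g) g :=
    fun x => matT_tw e he (u x) (hu x) C _ (hcls x)
  -- local constancy
  have hloc : IsLocallyConstant f := by
    rw [IsLocallyConstant.iff_eventually_eq]
    intro x₀
    have hlim : Tendsto (fun x => matN (E x - E x₀)) (𝓝 x₀) (𝓝 0) := by
      have hterm : ∀ p p' : Fin q × Fin n,
          Tendsto (fun x => l1n ((E x - E x₀) p p').1) (𝓝 x₀) (𝓝 0) := by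
        intro p p'
        have hb : Summable fun g => ‖e p.1 p'.1 g‖ * 2 := (he p.1 p'.1).mul_right 2
        have : Tendsto (fun x => ∑' g, ‖e p.1 p'.1 g * (u x g p.2 p'.2 - u x₀ g p.2 p'.2)‖) (𝓝 x₀)
            (𝓝 (∑' g : G, (0 : ℝ))) := by
          refine tendsto_tsum_of_dominated_convergence hb ?_ ?_
          · intro g
            have hc : Continuous fun x => ‖e p.1 p'.1 g * (u x g p.2 p'.2 - u x₀ g p.2 p'.2)‖ := by
              have h0 : Continuous fun x => u x g p.2 p'.2 := (hρ g).matrix_elem p.2 p'.2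
              fun_prop
            have := hc.tendsto x₀
            simpa using this
          · refine Eventually.of_forall fun x g => ?_
            rw [norm_norm, norm_mul]
            have h1 := hu x g p.2 p'.2
            have h2 := hu x₀ g p.2 p'.2
            have h3 : ‖u x g p.2 p'.2 - u x₀ g p.2 p'.2‖ ≤ 2 := by
              refine (norm_sub_le (u x g p.2 p'.2) (u x₀ g p.2 p'.2)).trans ?_
              linarith
            exact mul_le_mul_of_nonneg_left h3 (norm_nonneg (e p.1 p'.1 g))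
        rw [tsum_zero] at this
        refine this.congr ?_
        intro x
        unfold l1n
        refine tsum_congr fun g => ?_
        have : ((E x - E x₀) p p' : G → ℂ) g = e p.1 p'.1 g * u x g p.2 p'.2 - e p.1 p'.1 g * u x₀ g p.2 p'.2 := rfl
        rw [this, mul_sub]
      have : Tendsto (fun x => ∑ p, ∑ p', l1n ((E x - E x₀) p p').1) (𝓝 x₀)
          (𝓝 (∑ p : Fin q × Fin n, ∑ p' : Fin q × Fin n, (0 : ℝ))) :=
        tendsto_finsetSum _ fun p _ => tendsto_finsetSum _ fun p' _ => hterm p p'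
      simp only [Finset.sum_const_zero] at this
      exact this
    have hev : ∀ᶠ x in 𝓝 x₀, matN (E x - E x₀) < 1 :=
      hlim.eventually (gt_mem_nhds (by norm_num))
    filter_upwards [hev] with x hx
    exact matT_eq_of_close C hCconj (hE x) (hE x₀) hx
  have hxy : f x = f y := hloc.apply_eq_of_preconnectedSpace x y
  rw [hf, hf] at hxy
  have hτ : ∑' g, C.indicator (fun g => ∑ i, e i i g) g = 0 := by
    by_contra hne2
    exact hne (mul_right_cancel₀ hne2 hxy)
  have hsub : ∑' g : {g // IsConj g₀ g}, ∑ i, e i i g =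
      ∑' g, C.indicator (fun g => ∑ i, e i i g) g := by
    exact tsum_subtype C (fun g => ∑ i, e i i g)
  rw [hsub, hτ]

end Path

end Vale.Agent.Lib.P184
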