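import Mathlib

set_option linter.unusedSimpArgs false
set_option linter.unusedVariables false

/-! Newton iteration and a norm-controlled vanishing estimate in an abstract ring. -/

namespace Vale.Agent.Lib.P184

/-- Data used by the abstract Newton argument: a ring with a submultiplicative norm `N1`,
a differential seminorm `NL`, a cocycle `Φ` bounded by `N1 ⊗ NL`, and a functional `T` with
`Φ 1 x = lam * T x`. -/
structure NSetup (R : Type*) [Ring R] where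
  N1 : R → ℝ
  NL : R → ℝ
  Φ : R → R → ℂ
  T : R → ℂ
  lam : ℂ
  N1_zero : N1 0 = 0
  N1_nonneg : ∀ x, 0 ≤ N1 x
  NL_nonneg : ∀ x, 0 ≤ NL x
  N1_add : ∀ x y, N1 (x + y) ≤ N1 x + N1 y
  N1_neg : ∀ x, N1 (-x) = N1 x
  N1_mul : ∀ x y, N1 (x * y) ≤ N1 x * N1 y
  NL_add : ∀ x y, NL (x + y) ≤ NL x + NL y
  NL_neg : ∀ x, NL (-x) = NL x
  NL_mul : ∀ x y, NL (x * y) ≤ NL x * N1 y + N1 x * NL y
  NL_one : NL 1 = 0
  Φ_add_left : ∀ x y z, Φ (x + y) z = Φ x z + Φ y z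
  Φ_add_right : ∀ x y z, Φ x (y + z) = Φ x y + Φ x z
  Φ_bound : ∀ x y, ‖Φ x y‖ ≤ N1 x * NL y
  Φ_cocycle : ∀ u v w, Φ (u * v) w - Φ u (v * w) + Φ (w * u) v = 0
  Φ_one : ∀ x, Φ 1 x = lam * T x

variable {R : Type*} [Ring R] (S : NSetup R)

namespace NSetup

lemma N1_sub (x y : R) : S.N1 (x - y) ≤ S.N1 x + S.N1 y := by
  rw [sub_eq_add_neg]
  have := S.N1_add x (-y)
  rwa [S.N1_neg] at this

lemma NL_sub (x y : R) : S.NL (x - y) ≤ S.NL x + S.NL y := by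
  rw [sub_eq_add_neg]
  have := S.NL_add x (-y)
  rwa [S.NL_neg] at this

/-- The basic identity: for `b = x*x - x`, `lam T x = 2 Φ x b - 4 Φ b x - Φ 1 b`. -/
lemma lam_T_eq (x : R) :
    S.lam * S.T x = 2 * S.Φ x (x * x - x) - 4 * S.Φ (x * x - x) x - S.Φ 1 (x * x - x) := by
  set b := x * x - x with hb
  have hxx : x * x = x + b := by rw [hb]; abel
  have h1 := S.Φ_cocycle 1 x x
  have h2 := S.Φ_cocycle x x x
  simp only [one_mul, mul_one] at h1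
  rw [hxx, S.Φ_add_right] at h1
  rw [hxx, S.Φ_add_left, S.Φ_add_right] at h2
  rw [← S.Φ_one]
  linear_combination (-1 : ℂ) * h1 + 2 * h2

lemma norm_lam_T_le (x : R) :
    ‖S.lam * S.T x‖ ≤ 2 * (S.N1 x * S.NL (x * x - x)) + 4 * (S.N1 (x * x - x) * S.NL x)
      + S.N1 1 * S.NL (x * x - x) := by
  rw [lam_T_eq]
  have h1 := S.Φ_bound x (x * x - x)
  have h2 := S.Φ_bound (x * x - x) x
  have h3 := S.Φ_bound 1 (x * x - x)
  calc ‖2 * S.Φ x (x * x - x) - 4 * S.Φ (x * x - x) x - S.Φ 1 (x * x - x)‖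
      ≤ ‖2 * S.Φ x (x * x - x)‖ + ‖4 * S.Φ (x * x - x) x‖ + ‖S.Φ 1 (x * x - x)‖ := by
        refine (norm_sub_le _ _).trans ?_
        gcongr
        exact norm_sub_le _ _
    _ ≤ _ := by
        rw [norm_mul, norm_mul]
        simp only [Complex.norm_ofNat]
        linarith

/-- One Newton step. -/
def step (x : R) : R := x + (x * x - x) * (1 - x - x)

/-- The iterates of the Newton step. -/
def iter (x : R) : ℕ → R
  | 0 => x
  | n + 1 => step (iter x n)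

lemma step_defect (x : R) :
    step x * step x - step x =
      ((x * x - x) * (x * x - x)) * ((x * x - x) + (x * x - x) + (x * x - x) + (x * x - x) - 1 - 1 - 1) := by
  unfold step
  noncomm_ring

lemma N1_le_of_dist {x0 x : R} {K β t : ℝ} (hK0 : 0 ≤ K) (hβ0 : 0 ≤ β) (ht0 : 0 ≤ t)
    (hβ2 : 2 * K * β ≤ 1) (h : S.N1 (x - x0) ≤ 2 * K * β * (1 - t)) : S.N1 x ≤ S.N1 x0 + 1 := by
  have h1 : x = (x - x0) + x0 := by abel
  have h2 := S.N1_add (x - x0) x0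
  rw [← h1] at h2
  have h3 : 2 * K * β * (1 - t) ≤ 1 := by
    have h4 : 0 ≤ 2 * K * β := by positivity
    have h5 : (1 : ℝ) - t ≤ 1 := by linarith
    calc 2 * K * β * (1 - t) ≤ 2 * K * β * 1 := mul_le_mul_of_nonneg_left h5 h4
      _ = 2 * K * β := by ring
      _ ≤ 1 := hβ2
  linarith

/-- One step of the induction in the Newton argument. -/
lemma inv_step {x0 x b : R} (hb : b = x * x - x) {u K β γ t Q : ℝ}
    (hu : u = S.N1 1) (hK : K = u + 2 * (S.N1 x0 + 1))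
    (hβ0 : 0 ≤ β) (hγ0 : 0 ≤ γ)
    (hβ1 : β * (12 * β + 6 * u) ≤ 1 / 2) (hβ2 : 2 * K * β ≤ 1) (hβ3 : β ≤ 1 / 8)
    (ht0 : 0 ≤ t) (ht1 : t ≤ 1)
    (ih1 : S.N1 b ≤ β * t) (ih2 : S.NL b ≤ γ * t)
    (ih3 : S.N1 (x - x0) ≤ 2 * K * β * (1 - t))
    (ih4 : S.NL x + 2 * K * γ * t ≤ Q) :
    S.N1 (step x * step x - step x) ≤ β * (t * (1 / 2)) ∧
    S.NL (step x * step x - step x) ≤ γ * (t * (1 / 2)) ∧
    S.N1 (step x - x0) ≤ 2 * K * β * (1 - t * (1 / 2)) ∧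
    S.NL (step x) + 2 * K * γ * (t * (1 / 2)) ≤ (5 / 4) * Q := by
  have hu0 : 0 ≤ u := hu ▸ S.N1_nonneg _
  have hK0 : 0 ≤ K := by
    have := S.N1_nonneg x0
    rw [hK]; positivity
  set a := S.N1 b with ha
  set c := S.NL b with hc
  have ha0 : 0 ≤ a := S.N1_nonneg _
  have hc0 : 0 ≤ c := S.NL_nonneg _
  have haβ : a ≤ β := by
    calc a ≤ β * t := ih1
      _ ≤ β * 1 := mul_le_mul_of_nonneg_left ht1 hβ0
      _ = β := by ring
  have hx1 : S.N1 x ≤ S.N1 x0 + 1 := S.N1_le_of_dist hK0 hβ0 ht0 hβ2 ih3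
  have hNLx0 : 0 ≤ S.NL x := S.NL_nonneg _
  have hNone : S.N1 (1 - x - x) ≤ K := by
    have h1 := S.N1_sub (1 - x) x
    have h2 := S.N1_sub 1 x
    rw [hK, hu]
    linarith
  have hLone : S.NL (1 - x - x) ≤ 2 * S.NL x := by
    have h1 := S.NL_sub (1 - x) x
    have h2 := S.NL_sub 1 x
    rw [S.NL_one] at h2
    linarith
  have hW1 : S.N1 (b + b + b + b - 1 - 1 - 1) ≤ 4 * a + 3 * u := by
    have h1 := S.N1_sub (b + b + b + b - 1 - 1) 1
    have h2 := S.N1_sub (b + b + b + b - 1) 1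
    have h3 := S.N1_sub (b + b + b + b) 1
    have h4 := S.N1_add (b + b + b) b
    have h5 := S.N1_add (b + b) b
    have h6 := S.N1_add b b
    rw [hu]
    linarith
  have hWL : S.NL (b + b + b + b - 1 - 1 - 1) ≤ 4 * c := by
    have h1 := S.NL_sub (b + b + b + b - 1 - 1) 1
    have h2 := S.NL_sub (b + b + b + b - 1) 1
    have h3 := S.NL_sub (b + b + b + b) 1
    have h4 := S.NL_add (b + b + b) b
    have h5 := S.NL_add (b + b) b
    have h6 := S.NL_add b b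
    rw [S.NL_one] at h1 h2 h3
    linarith
  have hbb1 : S.N1 (b * b) ≤ a * a := S.N1_mul b b
  have hbbL : S.NL (b * b) ≤ 2 * (c * a) := by
    have := S.NL_mul b b
    linarith [mul_comm a c]
  have hquad : a * (12 * a + 6 * u) ≤ 1 / 2 := by
    calc a * (12 * a + 6 * u) ≤ β * (12 * β + 6 * u) := by
          apply mul_le_mul haβ _ (by positivity) hβ0
          linarith
      _ ≤ 1 / 2 := hβ1
  have hquad2 : a * (4 * a + 3 * u) ≤ 1 / 2 := by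
    have : a * (4 * a + 3 * u) ≤ a * (12 * a + 6 * u) := by
      apply mul_le_mul_of_nonneg_left _ ha0
      linarith
    linarith
  have hdef : step x * step x - step x = (b * b) * (b + b + b + b - 1 - 1 - 1) := by
    rw [hb]; exact step_defect x
  have hstep : step x = x + b * (1 - x - x) := by rw [hb]; rfl
  refine ⟨?_, ?_, ?_, ?_⟩
  · rw [hdef]
    calc S.N1 (b * b * (b + b + b + b - 1 - 1 - 1))
        ≤ S.N1 (b * b) * S.N1 (b + b + b + b - 1 - 1 - 1) := S.N1_mul _ _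
      _ ≤ (a * a) * (4 * a + 3 * u) := by
          apply mul_le_mul hbb1 hW1 (S.N1_nonneg _) (by positivity)
      _ = a * (a * (4 * a + 3 * u)) := by ring
      _ ≤ a * (1 / 2) := mul_le_mul_of_nonneg_left hquad2 ha0
      _ ≤ β * t * (1 / 2) := by linarith
      _ = β * (t * (1 / 2)) := by ring
  · rw [hdef]
    have h1 := S.NL_mul (b * b) (b + b + b + b - 1 - 1 - 1)
    have h2 : S.NL (b * b) * S.N1 (b + b + b + b - 1 - 1 - 1) ≤ 2 * (c * a) * (4 * a + 3 * u) :=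
      mul_le_mul hbbL hW1 (S.N1_nonneg _) (by positivity)
    have h3 : S.N1 (b * b) * S.NL (b + b + b + b - 1 - 1 - 1) ≤ (a * a) * (4 * c) :=
      mul_le_mul hbb1 hWL (S.NL_nonneg _) (by positivity)
    have h4 : 2 * (c * a) * (4 * a + 3 * u) + (a * a) * (4 * c) = c * (a * (12 * a + 6 * u)) := by ring
    have h5 : c * (a * (12 * a + 6 * u)) ≤ c * (1 / 2) := mul_le_mul_of_nonneg_left hquad hc0
    calc S.NL (b * b * (b + b + b + b - 1 - 1 - 1)) ≤ c * (1 / 2) := by linarith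
      _ ≤ γ * t * (1 / 2) := by linarith
      _ = γ * (t * (1 / 2)) := by ring
  · rw [hstep]
    have h1 : x + b * (1 - x - x) - x0 = (x - x0) + b * (1 - x - x) := by abel
    rw [h1]
    have h2 := S.N1_add (x - x0) (b * (1 - x - x))
    have h3 : S.N1 (b * (1 - x - x)) ≤ a * K :=
      (S.N1_mul _ _).trans (mul_le_mul_of_nonneg_left hNone ha0)
    have h4 : a * K ≤ β * t * K := mul_le_mul_of_nonneg_right ih1 hK0
    have h5 : 2 * K * β * (1 - t) + β * t * K = 2 * K * β * (1 - t * (1 / 2)) := by ring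
    linarith
  · rw [hstep]
    have h2 := S.NL_add x (b * (1 - x - x))
    have h3 := S.NL_mul b (1 - x - x)
    have h4 : S.NL b * S.N1 (1 - x - x) ≤ c * K := mul_le_mul_of_nonneg_left hNone hc0
    have h5 : S.N1 b * S.NL (1 - x - x) ≤ a * (2 * S.NL x) := mul_le_mul_of_nonneg_left hLone ha0
    have hab : a ≤ 1 / 8 := haβ.trans hβ3
    have h6 : a * (2 * S.NL x) ≤ (1 / 4) * S.NL x := by nlinarith
    have h7 : c * K ≤ γ * t * K := mul_le_mul_of_nonneg_right ih2 hK0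
    have h8 : 0 ≤ K * γ * t := by positivity
    have h11 : (5 / 4 : ℝ) * (S.NL x + 2 * K * γ * t) ≤ (5 / 4) * Q :=
      mul_le_mul_of_nonneg_left ih4 (by norm_num)
    have h13 : γ * t * K = K * γ * t := by ring
    have h14 : 2 * K * γ * (t * (1 / 2)) = K * γ * t := by ring
    have h15 : (5 / 4 : ℝ) * (S.NL x + 2 * K * γ * t) = (5 / 4) * S.NL x + (5 / 2) * (K * γ * t) := by ring
    rw [h14]
    rw [h15] at h11
    rw [h13] at h7
    linarith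

theorem iter_invariant (x0 : R) {u K β γ : ℝ}
    (hu : u = S.N1 1) (hK : K = u + 2 * (S.N1 x0 + 1))
    (hβ : β = S.N1 (x0 * x0 - x0)) (hγ : γ = S.NL (x0 * x0 - x0))
    (hβ1 : β * (12 * β + 6 * u) ≤ 1 / 2) (hβ2 : 2 * K * β ≤ 1) (hβ3 : β ≤ 1 / 8) (n : ℕ) :
    S.N1 (iter x0 n * iter x0 n - iter x0 n) ≤ β * (1 / 2) ^ n ∧
    S.NL (iter x0 n * iter x0 n - iter x0 n) ≤ γ * (1 / 2) ^ n ∧
    S.N1 (iter x0 n - x0) ≤ 2 * K * β * (1 - (1 / 2) ^ n) ∧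
    S.NL (iter x0 n) + 2 * K * γ * (1 / 2) ^ n ≤ (5 / 4) ^ n * (S.NL x0 + 2 * K * γ) := by
  have hβ0 : 0 ≤ β := hβ ▸ S.N1_nonneg _
  have hγ0 : 0 ≤ γ := hγ ▸ S.NL_nonneg _
  induction n with
  | zero =>
    refine ⟨by simp [iter, hβ], by simp [iter, hγ], ?_, ?_⟩
    · simp only [iter, sub_self, pow_zero, mul_zero]
      exact le_of_eq S.N1_zero
    · simp [iter]
  | succ n ih =>
    obtain ⟨ih1, ih2, ih3, ih4⟩ := ih
    have hp0 : (0 : ℝ) ≤ (1 / 2) ^ n := by positivity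
    have hp1 : ((1 : ℝ) / 2) ^ n ≤ 1 := pow_le_one₀ (by norm_num) (by norm_num)
    have := S.inv_step rfl hu hK hβ0 hγ0 hβ1 hβ2 hβ3 hp0 hp1 ih1 ih2 ih3 ih4
    rw [pow_succ (1 / 2 : ℝ), pow_succ (5 / 4 : ℝ), mul_right_comm ((5 / 4 : ℝ) ^ n)]
    rw [mul_comm ((5 / 4 : ℝ) ^ n * (S.NL x0 + 2 * K * γ))]
    exact this

theorem newton (x0 : R)
    (hβ1 : S.N1 (x0 * x0 - x0) * (12 * S.N1 (x0 * x0 - x0) + 6 * S.N1 1) ≤ 1 / 2)
    (hβ2 : 2 * (S.N1 1 + 2 * (S.N1 x0 + 1)) * S.N1 (x0 * x0 - x0) ≤ 1)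
    (hβ3 : S.N1 (x0 * x0 - x0) ≤ 1 / 8)
    (η : ℝ) (hη : 0 < η) :
    ∃ x, S.N1 (x - x0) ≤ 2 * (S.N1 1 + 2 * (S.N1 x0 + 1)) * S.N1 (x0 * x0 - x0) ∧
      ‖S.lam * S.T x‖ ≤ η := by
  set u := S.N1 1 with hu
  set β := S.N1 (x0 * x0 - x0) with hβ
  set γ := S.NL (x0 * x0 - x0) with hγ
  set K := u + 2 * (S.N1 x0 + 1) with hK
  set P0 := S.NL x0 + 2 * K * γ with hP0
  have hu0 : 0 ≤ u := S.N1_nonneg _
  have hβ0 : 0 ≤ β := S.N1_nonneg _
  have hγ0 : 0 ≤ γ := S.NL_nonneg _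
  have hx00 : 0 ≤ S.N1 x0 := S.N1_nonneg _
  have hK0 : 0 ≤ K := by
    rw [hK]; positivity
  have hP00 : 0 ≤ P0 := by
    have := S.NL_nonneg x0
    rw [hP0]; positivity
  have hlim : Filter.Tendsto
      (fun n : ℕ => (2 * (S.N1 x0 + 1) + u) * γ * (1 / 2 : ℝ) ^ n + 4 * β * P0 * (5 / 8 : ℝ) ^ n)
      Filter.atTop (nhds ((2 * (S.N1 x0 + 1) + u) * γ * 0 + 4 * β * P0 * 0)) := by
    refine Filter.Tendsto.add (Filter.Tendsto.const_mul _ ?_) (Filter.Tendsto.const_mul _ ?_)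
    · exact tendsto_pow_atTop_nhds_zero_of_lt_one (by norm_num) (by norm_num)
    · exact tendsto_pow_atTop_nhds_zero_of_lt_one (by norm_num) (by norm_num)
  have hev : ∀ᶠ n : ℕ in Filter.atTop,
      (2 * (S.N1 x0 + 1) + u) * γ * (1 / 2 : ℝ) ^ n + 4 * β * P0 * (5 / 8 : ℝ) ^ n < η := by
    apply hlim.eventually_lt_const
    simpa using hη
  obtain ⟨n, hn⟩ := hev.exists
  obtain ⟨h1, h2, h3, h4⟩ := S.iter_invariant x0 hu hK hβ hγ hβ1 hβ2 hβ3 n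
  have hp0 : (0 : ℝ) ≤ (1 / 2) ^ n := by positivity
  refine ⟨iter x0 n, ?_, ?_⟩
  · have h5 : 0 ≤ 2 * K * β := by positivity
    have h6 : (1 : ℝ) - (1 / 2) ^ n ≤ 1 := by linarith
    calc S.N1 (iter x0 n - x0) ≤ 2 * K * β * (1 - (1 / 2) ^ n) := h3
      _ ≤ 2 * K * β * 1 := mul_le_mul_of_nonneg_left h6 h5
      _ = 2 * K * β := by ring
  · have h5 := S.norm_lam_T_le (iter x0 n)
    have hx1 : S.N1 (iter x0 n) ≤ S.N1 x0 + 1 := S.N1_le_of_dist hK0 hβ0 hp0 hβ2 h3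
    set b := iter x0 n * iter x0 n - iter x0 n with hb
    have hNLX : S.NL (iter x0 n) ≤ (5 / 4) ^ n * P0 := by
      have : 0 ≤ 2 * K * γ * (1 / 2 : ℝ) ^ n := by positivity
      linarith
    have hnb : 0 ≤ S.NL b := S.NL_nonneg _
    have h6 : S.N1 (iter x0 n) * S.NL b ≤ (S.N1 x0 + 1) * (γ * (1 / 2) ^ n) :=
      mul_le_mul hx1 h2 hnb (by positivity)
    have h7 : S.N1 b * S.NL (iter x0 n) ≤ (β * (1 / 2) ^ n) * ((5 / 4) ^ n * P0) :=
      mul_le_mul h1 hNLX (S.NL_nonneg _) (by positivity)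
    have h8 : u * S.NL b ≤ u * (γ * (1 / 2) ^ n) := mul_le_mul_of_nonneg_left h2 hu0
    have h9 : (1 / 2 : ℝ) ^ n * (5 / 4) ^ n = (5 / 8) ^ n := by
      rw [← mul_pow]; norm_num
    have h10 : (β * (1 / 2) ^ n) * ((5 / 4) ^ n * P0) = β * P0 * (5 / 8) ^ n := by
      rw [← h9]; ring
    rw [h10] at h7
    have h11 : ‖S.lam * S.T (iter x0 n)‖ ≤
        (2 * (S.N1 x0 + 1) + u) * γ * (1 / 2 : ℝ) ^ n + 4 * β * P0 * (5 / 8 : ℝ) ^ n := by
      have e1 : (2 * (S.N1 x0 + 1) + u) * γ * (1 / 2 : ℝ) ^ n + 4 * β * P0 * (5 / 8 : ℝ) ^ n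
          = 2 * ((S.N1 x0 + 1) * (γ * (1 / 2) ^ n)) + 4 * (β * P0 * (5 / 8) ^ n) + u * (γ * (1 / 2) ^ n) := by ring
      rw [e1]
      linarith
    linarith

end NSetup

end Vale.Agent.Lib.P184
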