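import Mathlib
import Vale.Agent.Lib.P184.Cochain
import Vale.Agent.Lib.P184.Conv
import Vale.Agent.Lib.P184.Main
import Vale.Agent.Lib.P184.Newton

set_option linter.unusedSimpArgs false
set_option linter.unusedVariables false
set_option linter.unusedSectionVars false

open scoped BigOperators

/-! Weighted norms and the bilinear form on the complex group ring. -/

namespace Vale.Agent.Lib.P184

variable {G : Type*} [Group G]

abbrev CG (G : Type*) [Group G] := MonoidAlgebra ℂ G

/-- Weighted `ℓ¹`-norm on the group ring. -/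
noncomputable def nw (w : G → ℝ) (a : CG G) : ℝ := a.coeff.sum fun x c => w x * ‖c‖

lemma nw_eq_sum (w : G → ℝ) (a : CG G) {s : Finset G} (hs : a.coeff.support ⊆ s) :
    nw w a = ∑ x ∈ s, w x * ‖a.coeff x‖ :=
  Finsupp.sum_of_support_subset _ hs _ (fun x _ => by simp)

lemma nw_nonneg {w : G → ℝ} (hw : ∀ x, 0 ≤ w x) (a : CG G) : 0 ≤ nw w a :=
  Finset.sum_nonneg fun x _ => mul_nonneg (hw x) (norm_nonneg _)

lemma nw_zero (w : G → ℝ) : nw w (0 : CG G) = 0 := by simp [nw]

lemma nw_single (w : G → ℝ) (x : G) (c : ℂ) : nw w (MonoidAlgebra.single x c) = w x * ‖c‖ := by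
  unfold nw
  rw [MonoidAlgebra.coeff_single, Finsupp.sum_single_index]
  simp

lemma nw_add {w : G → ℝ} (hw : ∀ x, 0 ≤ w x) (a b : CG G) : nw w (a + b) ≤ nw w a + nw w b := by
  classical
  set s := a.coeff.support ∪ b.coeff.support with hs
  have h1 : a.coeff.support ⊆ s := Finset.subset_union_left
  have h2 : b.coeff.support ⊆ s := Finset.subset_union_right
  have h3 : (a + b).coeff.support ⊆ s := by
    rw [MonoidAlgebra.coeff_add]
    exact Finsupp.support_add
  rw [nw_eq_sum w a h1, nw_eq_sum w b h2, nw_eq_sum w (a + b) h3, ← Finset.sum_add_distrib]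
  refine Finset.sum_le_sum fun x _ => ?_
  rw [← mul_add]
  refine mul_le_mul_of_nonneg_left ?_ (hw x)
  rw [MonoidAlgebra.coeff_add]
  exact norm_add_le _ _

lemma nw_neg (w : G → ℝ) (a : CG G) : nw w (-a) = nw w a := by
  classical
  have h1 : (-a).coeff.support ⊆ a.coeff.support := by
    rw [MonoidAlgebra.coeff_neg, Finsupp.support_neg]
  rw [nw_eq_sum w (-a) h1, nw_eq_sum w a (Finset.Subset.refl _)]
  refine Finset.sum_congr rfl fun x _ => ?_
  rw [MonoidAlgebra.coeff_neg, Finsupp.neg_apply, norm_neg]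

lemma nw_sum_le {w : G → ℝ} (hw : ∀ x, 0 ≤ w x) {J : Type*} (s : Finset J) (f : J → CG G) :
    nw w (∑ i ∈ s, f i) ≤ ∑ i ∈ s, nw w (f i) := by
  classical
  induction s using Finset.induction_on with
  | empty => simp [nw_zero]
  | insert a s ha ih =>
    rw [Finset.sum_insert ha, Finset.sum_insert ha]
    refine (nw_add hw _ _).trans ?_
    linarith

/-- The basic estimate for products. -/
lemma nw_mul_le {w : G → ℝ} (hw : ∀ x, 0 ≤ w x) (a b : CG G) :
    nw w (a * b) ≤ ∑ x ∈ a.coeff.support, ∑ y ∈ b.coeff.support, w (x * y) * (‖a.coeff x‖ * ‖b.coeff y‖) := by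
  rw [MonoidAlgebra.mul_def]
  unfold Finsupp.sum
  refine (nw_sum_le hw _ _).trans ?_
  refine Finset.sum_le_sum fun x _ => ?_
  refine (nw_sum_le hw _ _).trans ?_
  refine Finset.sum_le_sum fun y _ => ?_
  rw [nw_single, norm_mul]

/-- The unweighted norm. -/
noncomputable def n1 (a : CG G) : ℝ := nw (fun _ => (1 : ℝ)) a

lemma n1_eq (a : CG G) : n1 a = ∑ x ∈ a.coeff.support, ‖a.coeff x‖ := by
  unfold n1 nw Finsupp.sum
  simp

lemma n1_nonneg (a : CG G) : 0 ≤ n1 a := nw_nonneg (fun _ => zero_le_one) a

lemma n1_add (a b : CG G) : n1 (a + b) ≤ n1 a + n1 b := nw_add (fun _ => zero_le_one) a b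

lemma n1_neg (a : CG G) : n1 (-a) = n1 a := nw_neg _ a

lemma n1_mul (a b : CG G) : n1 (a * b) ≤ n1 a * n1 b := by
  refine (nw_mul_le (fun _ => zero_le_one) a b).trans ?_
  rw [n1_eq, n1_eq, Finset.sum_mul_sum]
  simp

section Len
variable {L : G → ℝ} (hL : IsLen L)
include hL

lemma nL_nonneg (a : CG G) : 0 ≤ nw L a := nw_nonneg hL.nonneg a

lemma nL_mul (a b : CG G) : nw L (a * b) ≤ nw L a * n1 b + n1 a * nw L b := by
  refine (nw_mul_le hL.nonneg a b).trans ?_
  have h1 : nw L a = ∑ x ∈ a.coeff.support, L x * ‖a.coeff x‖ := nw_eq_sum L a (Finset.Subset.refl _)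
  have h2 : nw L b = ∑ x ∈ b.coeff.support, L x * ‖b.coeff x‖ := nw_eq_sum L b (Finset.Subset.refl _)
  rw [h1, h2, n1_eq, n1_eq, Finset.sum_mul_sum, Finset.sum_mul_sum, ← Finset.sum_add_distrib]
  refine Finset.sum_le_sum fun x _ => ?_
  rw [← Finset.sum_add_distrib]
  refine Finset.sum_le_sum fun y _ => ?_
  have h3 := hL.mul x y
  have h4 : 0 ≤ ‖a.coeff x‖ * ‖b.coeff y‖ := by positivity
  nlinarith

end Len

/-- The bilinear form attached to a kernel. -/
noncomputable def biF (φ : G → G → ℝ) (a b : CG G) : ℂ :=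
  a.coeff.sum fun x c => b.coeff.sum fun y d => c * d * (φ x y : ℂ)

lemma biF_add_left (φ : G → G → ℝ) (a a' b : CG G) : biF φ (a + a') b = biF φ a b + biF φ a' b := by
  classical
  unfold biF
  rw [MonoidAlgebra.coeff_add, Finsupp.sum_add_index']
  · intro x; simp
  · intro x c c'
    simp only [add_mul, Finsupp.sum, Finset.sum_add_distrib]

lemma biF_add_right (φ : G → G → ℝ) (a b b' : CG G) : biF φ a (b + b') = biF φ a b + biF φ a b' := by
  classical
  unfold biF
  rw [MonoidAlgebra.coeff_add]
  have : ∀ (x : G) (c : ℂ), (b.coeff + b'.coeff).sum (fun y d => c * d * (φ x y : ℂ)) =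
      b.coeff.sum (fun y d => c * d * (φ x y : ℂ)) + b'.coeff.sum (fun y d => c * d * (φ x y : ℂ)) := by
    intro x c
    rw [Finsupp.sum_add_index']
    · intro y; simp
    · intro y d d'
      ring
  simp only [this]
  unfold Finsupp.sum
  rw [Finset.sum_add_distrib]

lemma biF_zero_left (φ : G → G → ℝ) (b : CG G) : biF φ 0 b = 0 := by
  simp [biF]

lemma biF_zero_right (φ : G → G → ℝ) (a : CG G) : biF φ a 0 = 0 := by
  simp [biF]

lemma biF_single_single (φ : G → G → ℝ) (x y : G) (c d : ℂ) :
    biF φ (MonoidAlgebra.single x c) (MonoidAlgebra.single y d) = c * d * (φ x y : ℂ) := by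
  unfold biF
  rw [MonoidAlgebra.coeff_single, MonoidAlgebra.coeff_single, Finsupp.sum_single_index,
    Finsupp.sum_single_index]
  · simp
  · simp

lemma biF_sum_left (φ : G → G → ℝ) {J : Type*} (s : Finset J) (f : J → CG G) (b : CG G) :
    biF φ (∑ i ∈ s, f i) b = ∑ i ∈ s, biF φ (f i) b := by
  classical
  induction s using Finset.induction_on with
  | empty => simp [biF_zero_left]
  | insert a s ha ih => rw [Finset.sum_insert ha, Finset.sum_insert ha, biF_add_left, ih]

lemma biF_sum_right (φ : G → G → ℝ) {J : Type*} (s : Finset J) (a : CG G) (f : J → CG G) :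
    biF φ a (∑ i ∈ s, f i) = ∑ i ∈ s, biF φ a (f i) := by
  classical
  induction s using Finset.induction_on with
  | empty => simp [biF_zero_right]
  | insert i s ha ih => rw [Finset.sum_insert ha, Finset.sum_insert ha, biF_add_right, ih]

lemma biF_bound {φ : G → G → ℝ} {L : G → ℝ} (hL : IsLen L) (hφ : ∀ x y, |φ x y| ≤ L y) (a b : CG G) :
    ‖biF φ a b‖ ≤ n1 a * nw L b := by
  classical
  have h2 : nw L b = ∑ x ∈ b.coeff.support, L x * ‖b.coeff x‖ := nw_eq_sum L b (Finset.Subset.refl _)
  rw [n1_eq, h2, Finset.sum_mul_sum]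
  unfold biF Finsupp.sum
  refine (norm_sum_le _ _).trans ?_
  refine Finset.sum_le_sum fun x _ => ?_
  refine (norm_sum_le _ _).trans ?_
  refine Finset.sum_le_sum fun y _ => ?_
  rw [norm_mul, norm_mul, Complex.norm_real, Real.norm_eq_abs]
  have h3 := hφ x y
  have h4 : 0 ≤ ‖a.coeff x‖ * ‖b.coeff y‖ := by positivity
  nlinarith

/-- The cocycle identity extends from group elements to the group ring. -/
lemma biF_cocycle {φ : G → G → ℝ} (hφ : ∀ x y z, φ (x * y) z - φ x (y * z) + φ (z * x) y = 0)
    (u v w : CG G) : biF φ (u * v) w - biF φ u (v * w) + biF φ (w * u) v = 0 := by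
  induction u using MonoidAlgebra.induction_linear with
  | zero => simp [biF_zero_left]
  | add u u' hu hu' =>
    rw [add_mul, mul_add, biF_add_left, biF_add_left, biF_add_left]
    linear_combination hu + hu'
  | single x c =>
    induction v using MonoidAlgebra.induction_linear with
    | zero => simp [biF_zero_left, biF_zero_right]
    | add v v' hv hv' =>
      rw [add_mul, mul_add, biF_add_left, biF_add_right, biF_add_right]
      linear_combination hv + hv'
    | single y d =>
      induction w using MonoidAlgebra.induction_linear with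
      | zero => simp [biF_zero_left, biF_zero_right]
      | add w w' hw hw' =>
        rw [add_mul, mul_add, biF_add_left, biF_add_right, biF_add_right]
        linear_combination hw + hw'
      | single z f =>
        simp only [MonoidAlgebra.single_mul_single, biF_single_single]
        have := hφ x y z
        have h2 : ((φ (x * y) z : ℂ) - (φ x (y * z) : ℂ) + (φ (z * x) y : ℂ)) = 0 := by
          exact_mod_cast this
        linear_combination (c * d * f) * h2

/-- The map to `ℓ¹`. -/
noncomputable def iota0 : CG G →+* l1 G where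
  toFun a := ⟨fun g => a.coeff g, by
    refine summable_of_hasFiniteSupport ?_
    refine (a.coeff.hasFiniteSupport).subset ?_
    intro g hg
    simp only [Function.mem_support, ne_eq, norm_eq_zero] at hg ⊢
    exact hg⟩
  map_zero' := by
    apply Subtype.ext
    funext g
    simp
  map_add' := by
    intro a b
    apply Subtype.ext
    funext g
    simp
  map_one' := by
    classical
    apply Subtype.ext
    funext g
    have h1 : ((1 : l1 G) : G → ℂ) g = dl G g := rfl
    rw [h1]
    simp only [MonoidAlgebra.one_def, MonoidAlgebra.coeff_single, dl, Finsupp.single_apply]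
    by_cases hg : g = 1
    · simp [hg]
    · have : ¬ (1 : G) = g := fun h => hg h.symm
      simp [hg, this]
  map_mul' := by
    intro a b
    apply Subtype.ext
    funext g
    rw [l1_mul_coe]
    simp only
    rw [MonoidAlgebra.coeff_mul_apply_left]
    unfold cv Finsupp.sum
    rw [tsum_eq_sum (s := a.coeff.support)]
    intro h hh
    simp only [Finsupp.notMem_support_iff] at hh
    simp [hh]

lemma iota0_coe (a : CG G) (g : G) : ((iota0 a : l1 G) : G → ℂ) g = a.coeff g := rfl

lemma l1n_iota0 (a : CG G) : l1n ((iota0 a : l1 G) : G → ℂ) = n1 a := by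
  rw [n1_eq]
  unfold l1n
  rw [tsum_eq_sum (s := a.coeff.support)]
  · rfl
  · intro h hh
    simp only [Finsupp.notMem_support_iff] at hh
    simp [iota0_coe, hh]

lemma clsTr_iota0 (C : Set G) (a : CG G) :
    clsTr C (iota0 a) = a.coeff.sum fun x c => C.indicator (fun _ => c) x := by
  rw [clsTr_apply]
  unfold Finsupp.sum
  rw [tsum_eq_sum (s := a.coeff.support)]
  · rfl
  · intro h hh
    simp only [Finsupp.notMem_support_iff] at hh
    simp [Set.indicator, iota0_coe, hh]

/-- Truncation: elements of the group ring are dense. -/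
lemma exists_trunc {a : G → ℂ} (ha : Summable fun g => ‖a g‖) {ε : ℝ} (hε : 0 < ε) :
    ∃ b : CG G, l1n (((iota0 b : l1 G) : G → ℂ) - a) ≤ ε := by
  classical
  have hlim := tendsto_tsum_compl_atTop_zero (fun g => ‖a g‖)
  have hev := hlim.eventually (gt_mem_nhds hε)
  obtain ⟨s, hs⟩ := hev.exists
  let b : CG G := MonoidAlgebra.ofCoeff (Finsupp.onFinset s (fun g => if g ∈ s then a g else 0) (by
    intro g hg
    by_contra hgs
    simp [hgs] at hg))
  refine ⟨b, ?_⟩
  have hb : ∀ g, ((iota0 b : l1 G) : G → ℂ) g = if g ∈ s then a g else 0 := fun g => rfl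
  unfold l1n
  have h1 : ∀ g, ‖(((iota0 b : l1 G) : G → ℂ) - a) g‖ = ((sᶜ : Set G)).indicator (fun g => ‖a g‖) g := by
    intro g
    by_cases hg : g ∈ s
    · have : g ∉ ((sᶜ : Set G)) := by simpa using hg
      rw [Set.indicator_of_notMem this, Pi.sub_apply, hb, if_pos hg]
      simp
    · have : g ∈ ((sᶜ : Set G)) := by simpa using hg
      rw [Set.indicator_of_mem this, Pi.sub_apply, hb, if_neg hg]
      simp
  simp_rw [h1]
  rw [← tsum_subtype]
  exact hs.le

end Vale.Agent.Lib.P184
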