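import Mathlib
import Vale.Agent.Lib.P184.Finite

set_option linter.unusedSimpArgs false
set_option linter.unusedVariables false
set_option linter.unusedSectionVars false

open scoped BigOperators

/-! Matrices over the group ring and the final vanishing theorem. -/

namespace Vale.Agent.Lib.P184

variable {G : Type*} [Group G] {I : Type*} [Fintype I] [DecidableEq I]

/-- Sum over entries of a function on the group ring. -/
noncomputable def mN (w : G → ℝ) (M : Matrix I I (CG G)) : ℝ := ∑ i, ∑ j, nw w (M i j)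

lemma mN_nonneg {w : G → ℝ} (hw : ∀ x, 0 ≤ w x) (M : Matrix I I (CG G)) : 0 ≤ mN w M :=
  Finset.sum_nonneg fun _ _ => Finset.sum_nonneg fun _ _ => nw_nonneg hw _

lemma mN_add {w : G → ℝ} (hw : ∀ x, 0 ≤ w x) (M M' : Matrix I I (CG G)) :
    mN w (M + M') ≤ mN w M + mN w M' := by
  unfold mN
  rw [← Finset.sum_add_distrib]
  refine Finset.sum_le_sum fun i _ => ?_
  rw [← Finset.sum_add_distrib]
  exact Finset.sum_le_sum fun j _ => nw_add hw _ _

lemma mN_neg (w : G → ℝ) (M : Matrix I I (CG G)) : mN w (-M) = mN w M := by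
  unfold mN
  refine Finset.sum_congr rfl fun i _ => Finset.sum_congr rfl fun j _ => ?_
  exact nw_neg w _

lemma mN_zero (w : G → ℝ) : mN w (0 : Matrix I I (CG G)) = 0 := by
  simp [mN, nw_zero]

/-- A general product estimate for entry-sum norms. -/
lemma mN1_mul (M M' : Matrix I I (CG G)) :
    mN (fun _ => (1 : ℝ)) (M * M') ≤ mN (fun _ => (1 : ℝ)) M * mN (fun _ => (1 : ℝ)) M' := by
  set B : ℝ := ∑ r, ∑ p', n1 (M' r p') with hB
  have hB0 : ∀ r, ∑ p', n1 (M' r p') ≤ B := fun r =>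
    Finset.single_le_sum (f := fun r => ∑ p', n1 (M' r p'))
      (fun r _ => Finset.sum_nonneg fun _ _ => n1_nonneg _) (Finset.mem_univ r)
  have hstep : ∀ p, ∑ p', n1 ((M * M') p p') ≤ (∑ r, n1 (M p r)) * B := by
    intro p
    calc ∑ p', n1 ((M * M') p p')
        ≤ ∑ p', ∑ r, n1 (M p r) * n1 (M' r p') := by
          refine Finset.sum_le_sum fun p' _ => ?_
          rw [Matrix.mul_apply]
          refine (nw_sum_le (fun _ => zero_le_one) _ _).trans ?_
          refine Finset.sum_le_sum fun r _ => ?_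
          exact n1_mul _ _
      _ = ∑ r, n1 (M p r) * ∑ p', n1 (M' r p') := by
          rw [Finset.sum_comm]
          refine Finset.sum_congr rfl fun r _ => ?_
          rw [Finset.mul_sum]
      _ ≤ ∑ r, n1 (M p r) * B := by
          refine Finset.sum_le_sum fun r _ => ?_
          exact mul_le_mul_of_nonneg_left (hB0 r) (n1_nonneg _)
      _ = (∑ r, n1 (M p r)) * B := by rw [Finset.sum_mul]
  calc ∑ p, ∑ p', n1 ((M * M') p p') ≤ ∑ p, (∑ r, n1 (M p r)) * B :=
        Finset.sum_le_sum fun p _ => hstep p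
    _ = (∑ p, ∑ p', n1 (M p p')) * B := by rw [Finset.sum_mul]

lemma mNL_mul {L : G → ℝ} (hL : IsLen L) (M M' : Matrix I I (CG G)) :
    mN L (M * M') ≤ mN L M * mN (fun _ => (1 : ℝ)) M' + mN (fun _ => (1 : ℝ)) M * mN L M' := by
  set B1 : ℝ := ∑ r, ∑ p', n1 (M' r p') with hB1
  set BL : ℝ := ∑ r, ∑ p', nw L (M' r p') with hBL
  have hB1r : ∀ r, ∑ p', n1 (M' r p') ≤ B1 := fun r =>
    Finset.single_le_sum (f := fun r => ∑ p', n1 (M' r p'))
      (fun r _ => Finset.sum_nonneg fun _ _ => n1_nonneg _) (Finset.mem_univ r)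
  have hBLr : ∀ r, ∑ p', nw L (M' r p') ≤ BL := fun r =>
    Finset.single_le_sum (f := fun r => ∑ p', nw L (M' r p'))
      (fun r _ => Finset.sum_nonneg fun _ _ => nL_nonneg hL _) (Finset.mem_univ r)
  have hstep : ∀ p, ∑ p', nw L ((M * M') p p') ≤
      (∑ r, nw L (M p r)) * B1 + (∑ r, n1 (M p r)) * BL := by
    intro p
    calc ∑ p', nw L ((M * M') p p')
        ≤ ∑ p', ∑ r, (nw L (M p r) * n1 (M' r p') + n1 (M p r) * nw L (M' r p')) := by
          refine Finset.sum_le_sum fun p' _ => ?_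
          rw [Matrix.mul_apply]
          refine (nw_sum_le hL.nonneg _ _).trans ?_
          refine Finset.sum_le_sum fun r _ => ?_
          exact nL_mul hL _ _
      _ = ∑ r, (nw L (M p r) * ∑ p', n1 (M' r p') + n1 (M p r) * ∑ p', nw L (M' r p')) := by
          rw [Finset.sum_comm]
          refine Finset.sum_congr rfl fun r _ => ?_
          rw [Finset.mul_sum, Finset.mul_sum, Finset.sum_add_distrib]
      _ ≤ ∑ r, (nw L (M p r) * B1 + n1 (M p r) * BL) := by
          refine Finset.sum_le_sum fun r _ => ?_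
          exact add_le_add (mul_le_mul_of_nonneg_left (hB1r r) (nL_nonneg hL _))
            (mul_le_mul_of_nonneg_left (hBLr r) (n1_nonneg _))
      _ = (∑ r, nw L (M p r)) * B1 + (∑ r, n1 (M p r)) * BL := by
          rw [Finset.sum_add_distrib, Finset.sum_mul, Finset.sum_mul]
  calc ∑ p, ∑ p', nw L ((M * M') p p')
      ≤ ∑ p, ((∑ r, nw L (M p r)) * B1 + (∑ r, n1 (M p r)) * BL) :=
        Finset.sum_le_sum fun p _ => hstep p
    _ = _ := by
        rw [Finset.sum_add_distrib, ← Finset.sum_mul, ← Finset.sum_mul]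
        rfl

lemma mNL_one {L : G → ℝ} (hL : IsLen L) : mN L (1 : Matrix I I (CG G)) = 0 := by
  unfold mN
  refine Finset.sum_eq_zero fun i _ => Finset.sum_eq_zero fun j _ => ?_
  by_cases hij : i = j
  · subst hij
    rw [Matrix.one_apply_eq, MonoidAlgebra.one_def, nw_single, hL.one]
    simp
  · rw [Matrix.one_apply_ne hij, nw_zero]

/-- The bilinear form on matrices. -/
noncomputable def mF (φ : G → G → ℝ) (M M' : Matrix I I (CG G)) : ℂ := ∑ i, ∑ j, biF φ (M i j) (M' j i)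

lemma mF_add_left (φ : G → G → ℝ) (x y z : Matrix I I (CG G)) : mF φ (x + y) z = mF φ x z + mF φ y z := by
  unfold mF
  rw [← Finset.sum_add_distrib]
  refine Finset.sum_congr rfl fun i _ => ?_
  rw [← Finset.sum_add_distrib]
  refine Finset.sum_congr rfl fun j _ => ?_
  rw [Matrix.add_apply, biF_add_left]

lemma mF_add_right (φ : G → G → ℝ) (x y z : Matrix I I (CG G)) : mF φ x (y + z) = mF φ x y + mF φ x z := by
  unfold mF
  rw [← Finset.sum_add_distrib]
  refine Finset.sum_congr rfl fun i _ => ?_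
  rw [← Finset.sum_add_distrib]
  refine Finset.sum_congr rfl fun j _ => ?_
  rw [Matrix.add_apply, biF_add_right]

lemma mF_bound {φ : G → G → ℝ} {L : G → ℝ} (hL : IsLen L) (hφ : ∀ x y, |φ x y| ≤ L y)
    (M M' : Matrix I I (CG G)) : ‖mF φ M M'‖ ≤ mN (fun _ => (1 : ℝ)) M * mN L M' := by
  set BL : ℝ := ∑ r, ∑ p', nw L (M' r p') with hBL
  have hBLr : ∀ r, ∑ p', nw L (M' r p') ≤ BL := fun r =>
    Finset.single_le_sum (f := fun r => ∑ p', nw L (M' r p'))
      (fun r _ => Finset.sum_nonneg fun _ _ => nL_nonneg hL _) (Finset.mem_univ r)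
  have hentry : ∀ j i, nw L (M' j i) ≤ BL := by
    intro j i
    refine le_trans ?_ (hBLr j)
    exact Finset.single_le_sum (f := fun p' => nw L (M' j p'))
      (fun _ _ => nL_nonneg hL _) (Finset.mem_univ i)
  unfold mF
  refine (norm_sum_le _ _).trans ?_
  unfold mN
  change _ ≤ (∑ i, ∑ j, n1 (M i j)) * BL
  rw [Finset.sum_mul]
  refine Finset.sum_le_sum fun i _ => ?_
  refine (norm_sum_le _ _).trans ?_
  rw [Finset.sum_mul]
  refine Finset.sum_le_sum fun j _ => ?_
  refine (biF_bound hL hφ _ _).trans ?_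
  exact mul_le_mul_of_nonneg_left (hentry j i) (n1_nonneg _)

lemma mF_cocycle {φ : G → G → ℝ} (hφ : ∀ x y z, φ (x * y) z - φ x (y * z) + φ (z * x) y = 0)
    (U V W : Matrix I I (CG G)) : mF φ (U * V) W - mF φ U (V * W) + mF φ (W * U) V = 0 := by
  have h1 : mF φ (U * V) W = ∑ i, ∑ j, ∑ k, biF φ (U i k * V k j) (W j i) := by
    unfold mF
    refine Finset.sum_congr rfl fun i _ => Finset.sum_congr rfl fun j _ => ?_
    rw [Matrix.mul_apply, biF_sum_left]
  have h2 : mF φ U (V * W) = ∑ i, ∑ j, ∑ k, biF φ (U i k) (V k j * W j i) := by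
    unfold mF
    refine Finset.sum_congr rfl fun i _ => ?_
    rw [Finset.sum_comm]
    refine Finset.sum_congr rfl fun k _ => ?_
    rw [Matrix.mul_apply, biF_sum_right]
  have h3 : mF φ (W * U) V = ∑ i, ∑ j, ∑ k, biF φ (W j i * U i k) (V k j) := by
    unfold mF
    calc ∑ a, ∑ b, biF φ ((W * U) a b) (V b a)
        = ∑ a, ∑ b, ∑ c, biF φ (W a c * U c b) (V b a) := by
          refine Finset.sum_congr rfl fun a _ => Finset.sum_congr rfl fun b _ => ?_
          rw [Matrix.mul_apply, biF_sum_left]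
      _ = ∑ a, ∑ c, ∑ b, biF φ (W a c * U c b) (V b a) :=
          Finset.sum_congr rfl fun a _ => Finset.sum_comm
      _ = ∑ c, ∑ a, ∑ b, biF φ (W a c * U c b) (V b a) := Finset.sum_comm
  rw [h1, h2, h3, ← Finset.sum_sub_distrib, ← Finset.sum_add_distrib]
  refine Finset.sum_eq_zero fun i _ => ?_
  rw [← Finset.sum_sub_distrib, ← Finset.sum_add_distrib]
  refine Finset.sum_eq_zero fun j _ => ?_
  rw [← Finset.sum_sub_distrib, ← Finset.sum_add_distrib]
  refine Finset.sum_eq_zero fun k _ => ?_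
  exact biF_cocycle hφ _ _ _

/-- The ring map on matrices. -/
noncomputable abbrev iotaM : Matrix I I (CG G) →+* Matrix I I (l1 G) := iota0.mapMatrix

lemma iotaM_apply (M : Matrix I I (CG G)) (i j : I) : iotaM M i j = iota0 (M i j) := rfl

lemma matN_iotaM (M : Matrix I I (CG G)) : matN (iotaM M) = mN (fun _ => (1 : ℝ)) M := by
  unfold matN mN
  refine Finset.sum_congr rfl fun i _ => Finset.sum_congr rfl fun j _ => ?_
  exact l1n_iota0 (M i j)

lemma l1n_neg (a : G → ℂ) : l1n (-a) = l1n a := by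
  unfold l1n
  simp

lemma matN_add_le (M M' : Matrix I I (l1 G)) : matN (M + M') ≤ matN M + matN M' := by
  unfold matN
  rw [← Finset.sum_add_distrib]
  refine Finset.sum_le_sum fun i _ => ?_
  rw [← Finset.sum_add_distrib]
  refine Finset.sum_le_sum fun j _ => ?_
  exact l1n_add_le (M i j).2 (M' i j).2

lemma matN_neg (M : Matrix I I (l1 G)) : matN (-M) = matN M := by
  unfold matN
  refine Finset.sum_congr rfl fun i _ => Finset.sum_congr rfl fun j _ => ?_
  exact l1n_neg _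

lemma matN_sub_le (M M' : Matrix I I (l1 G)) : matN (M - M') ≤ matN M + matN M' := by
  rw [sub_eq_add_neg]
  have := matN_add_le M (-M')
  rwa [matN_neg] at this

variable {g₀ : G} {L : G → ℝ} {ψ : Subgroup.centralizer ({g₀} : Set G) → ℝ}

lemma biF_one (hL : IsLen L) (hψ : ∀ a b, ψ (a * b) = ψ a + ψ b) (hψL : ∀ a, |ψ a| ≤ L a)
    (hg : g₀ ∈ Subgroup.centralizer ({g₀} : Set G)) (b : CG G) :
    biF (phi g₀ L ψ) 1 b = ((ψ ⟨g₀, hg⟩ : ℝ) : ℂ) * clsTr {g | IsConj g₀ g} (iota0 b) := by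
  classical
  rw [clsTr_iota0]
  unfold biF
  rw [MonoidAlgebra.one_def, MonoidAlgebra.coeff_single, Finsupp.sum_single_index]
  · unfold Finsupp.sum
    rw [Finset.mul_sum]
    refine Finset.sum_congr rfl fun y _ => ?_
    beta_reduce
    by_cases hy : IsConj g₀ y
    · rw [phi_one_left hL hψ hψL hg y hy, Set.indicator_of_mem (by exact hy)]
      ring
    · have h1 : ¬ IsConj g₀ (1 * y) := by rwa [one_mul]
      rw [phi_not_conj h1, Set.indicator_of_notMem (by exact hy)]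
      simp
  · simp

/-- The concrete instance of the abstract Newton setup. -/
noncomputable def theSetup (hL : IsLen L) (hψ : ∀ a b, ψ (a * b) = ψ a + ψ b)
    (hψL : ∀ a, |ψ a| ≤ L a) (hg : g₀ ∈ Subgroup.centralizer ({g₀} : Set G)) :
    NSetup (Matrix I I (CG G)) where
  N1 := mN (fun _ => (1 : ℝ))
  NL := mN L
  Φ := mF (phi g₀ L ψ)
  T := fun M => matT {g | IsConj g₀ g} (iotaM M)
  lam := ((ψ ⟨g₀, hg⟩ : ℝ) : ℂ)
  N1_zero := mN_zero _
  N1_nonneg := mN_nonneg fun _ => zero_le_one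
  NL_nonneg := mN_nonneg hL.nonneg
  N1_add := mN_add fun _ => zero_le_one
  N1_neg := mN_neg _
  N1_mul := mN1_mul
  NL_add := mN_add hL.nonneg
  NL_neg := mN_neg _
  NL_mul := mNL_mul hL
  NL_one := mNL_one hL
  Φ_add_left := mF_add_left _
  Φ_add_right := mF_add_right _
  Φ_bound := mF_bound hL (abs_phi_le hL hψL)
  Φ_cocycle := mF_cocycle (phi_cocycle hL hψ hψL)
  Φ_one := by
    intro M
    unfold mF
    rw [matT_apply, Finset.mul_sum]
    refine Finset.sum_congr rfl fun i _ => ?_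
    rw [Finset.sum_eq_single i]
    · rw [Matrix.one_apply_eq]
      exact biF_one hL hψ hψL hg (M i i)
    · intro j _ hji
      rw [Matrix.one_apply_ne (Ne.symm hji)]
      exact biF_zero_left _ _
    · intro h
      exact absurd (Finset.mem_univ i) h

/-- Matrices over the group ring are dense in matrices over `ℓ¹`. -/
lemma exists_approx (E : Matrix I I (l1 G)) {ε : ℝ} (hε : 0 < ε) :
    ∃ x : Matrix I I (CG G), matN (iotaM x - E) ≤ ε := by
  classical
  set c : ℝ := (Fintype.card I : ℝ) ^ 2 + 1 with hc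
  have hc0 : 0 < c := by positivity
  have hδ : 0 < ε / c := div_pos hε hc0
  have : ∀ i j, ∃ b : CG G, l1n (((iota0 b : l1 G) : G → ℂ) - (E i j : G → ℂ)) ≤ ε / c :=
    fun i j => exists_trunc (E i j).2 hδ
  choose b hb using this
  refine ⟨Matrix.of b, ?_⟩
  unfold matN
  have hentry : ∀ i j, l1n (((iotaM (Matrix.of b) - E) i j : l1 G) : G → ℂ) ≤ ε / c := fun i j => hb i j
  calc ∑ i, ∑ j, l1n (((iotaM (Matrix.of b) - E) i j : l1 G) : G → ℂ)
      ≤ ∑ i : I, ∑ j : I, ε / c :=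
        Finset.sum_le_sum fun i _ => Finset.sum_le_sum fun j _ => hentry i j
    _ = (Fintype.card I : ℝ) ^ 2 * (ε / c) := by
        simp only [Finset.sum_const, Finset.card_univ, nsmul_eq_mul]
        ring
    _ ≤ ε := by
        have h1 : (Fintype.card I : ℝ) ^ 2 ≤ c := by rw [hc]; linarith
        calc (Fintype.card I : ℝ) ^ 2 * (ε / c) ≤ c * (ε / c) :=
              mul_le_mul_of_nonneg_right h1 hδ.le
          _ = ε := by field_simp

/-- The choice of the small parameter. -/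
lemma exists_eps {a0 u τ : ℝ} (ha0 : 0 ≤ a0) (hu0 : 0 ≤ u) (hτ0 : 0 < τ) :
    ∃ ε : ℝ, 0 < ε ∧ ε ≤ 1 ∧ ε * (2 * a0 + 2) ≤ 1 / (24 * (u + 1)) ∧
      2 * (u + 2 * (a0 + 2)) * (ε * (2 * a0 + 2)) ≤ 1 ∧
      ε * (1 + 2 * (u + 2 * (a0 + 2)) * (2 * a0 + 2)) ≤ τ / 4 := by
  set D := 2 * a0 + 2 with hD
  have hD0 : 0 < D := by positivity
  set K0 := u + 2 * (a0 + 2) with hK0def
  have hK00 : 0 < K0 := by positivity
  set M1 := 1 + 2 * K0 * D with hM1
  have hM10 : 0 < M1 := by positivity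
  refine ⟨min (1 / (24 * (D + 1) * (u + 1))) (min (1 / (2 * K0 * D + 1)) (min (τ / (4 * M1)) 1)), ?_, ?_, ?_, ?_, ?_⟩
  · simp only [lt_min_iff]
    refine ⟨by positivity, by positivity, by positivity, by norm_num⟩
  · exact (min_le_right _ _).trans ((min_le_right _ _).trans (min_le_right _ _))
  · have hε2 := min_le_left (1 / (24 * (D + 1) * (u + 1))) (min (1 / (2 * K0 * D + 1)) (min (τ / (4 * M1)) 1))
    refine (mul_le_mul_of_nonneg_right hε2 hD0.le).trans ?_
    rw [div_mul_eq_mul_div, one_mul, div_le_div_iff₀ (by positivity) (by positivity)]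
    nlinarith [mul_pos hD0 (by positivity : 0 < 24 * (u + 1))]
  · set ε := min (1 / (24 * (D + 1) * (u + 1))) (min (1 / (2 * K0 * D + 1)) (min (τ / (4 * M1)) 1))
    have hε3 : ε ≤ 1 / (2 * K0 * D + 1) := (min_le_right _ _).trans (min_le_left _ _)
    have h1 : ε * (2 * K0 * D + 1) ≤ 1 := by
      have := mul_le_mul_of_nonneg_right hε3 (by positivity : 0 ≤ 2 * K0 * D + 1)
      rwa [one_div, inv_mul_cancel₀ (by positivity)] at this
    have hε0 : 0 < ε := by
      simp only [ε, lt_min_iff]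
      refine ⟨by positivity, by positivity, by positivity, by norm_num⟩
    nlinarith
  · set ε := min (1 / (24 * (D + 1) * (u + 1))) (min (1 / (2 * K0 * D + 1)) (min (τ / (4 * M1)) 1))
    have hε4 : ε ≤ τ / (4 * M1) := (min_le_right _ _).trans ((min_le_right _ _).trans (min_le_left _ _))
    have h1 := mul_le_mul_of_nonneg_right hε4 hM10.le
    have h2 : τ / (4 * M1) * M1 = τ / 4 := by field_simp
    linarith

/-- Numerical conditions from smallness of the defect. -/
lemma newton_conditions {β u ξ a0 ε D : ℝ} (hβ0 : 0 ≤ β) (hu0 : 0 ≤ u) (hξ : ξ ≤ a0 + 1)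
    (hβ : β ≤ ε * D) (hεD : ε * D ≤ 1 / (24 * (u + 1)))
    (hεK : 2 * (u + 2 * (a0 + 2)) * (ε * D) ≤ 1) (hξ0 : 0 ≤ ξ) :
    β * (12 * β + 6 * u) ≤ 1 / 2 ∧ 2 * (u + 2 * (ξ + 1)) * β ≤ 1 ∧ β ≤ 1 / 8 ∧
      2 * (u + 2 * (ξ + 1)) * β ≤ 2 * (u + 2 * (a0 + 2)) * (ε * D) := by
  have hβsmall : β ≤ 1 / (24 * (u + 1)) := hβ.trans hεD
  have hβ24 : 24 * (u + 1) * β ≤ 1 := by
    have := mul_le_mul_of_nonneg_left hβsmall (by positivity : 0 ≤ 24 * (u + 1))
    rwa [mul_one_div_cancel (by positivity)] at this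
  have hβ12 : 12 * β ≤ 1 / 2 := by nlinarith
  have hc1 : β * (12 * β + 6 * u) ≤ 1 / 2 := by nlinarith
  have hKβ : 2 * (u + 2 * (ξ + 1)) * β ≤ 2 * (u + 2 * (a0 + 2)) * (ε * D) := by
    have hK : 0 ≤ 2 * (u + 2 * (a0 + 2)) := by linarith
    apply mul_le_mul _ hβ hβ0 hK
    linarith
  exact ⟨hc1, hKβ.trans hεK, by nlinarith, hKβ⟩

/-- The defect of an approximate idempotent near an idempotent. -/
lemma defect_bound {E Y : Matrix I I (l1 G)} (hE : E * E = E) {ε : ℝ} (hε0 : 0 < ε) (hε1 : ε ≤ 1)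
    (hY : matN Y ≤ ε) :
    matN ((E + Y) * (E + Y) - (E + Y)) ≤ ε * (2 * matN E + 2) := by
  have ha0 : 0 ≤ matN E := Finset.sum_nonneg fun _ _ => Finset.sum_nonneg fun _ _ => l1n_nonneg _
  have h1 : (E + Y) * (E + Y) - (E + Y) = (E * Y + Y * E + Y * Y) - Y := by
    have : (E + Y) * (E + Y) = E * E + (E * Y + Y * E + Y * Y) := by noncomm_ring
    rw [this, hE]
    abel
  rw [h1]
  have h2 := matN_sub_le (E * Y + Y * E + Y * Y) Y
  have h3 := matN_add_le (E * Y + Y * E) (Y * Y)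
  have h4 := matN_add_le (E * Y) (Y * E)
  have h5 := matN_mul_le E Y
  have h6 := matN_mul_le Y E
  have h7 := matN_mul_le Y Y
  have hY0 : 0 ≤ matN Y := Finset.sum_nonneg fun _ _ => Finset.sum_nonneg fun _ _ => l1n_nonneg _
  have h8 : matN E * matN Y ≤ matN E * ε := mul_le_mul_of_nonneg_left hY ha0
  have h9 : matN Y * matN E ≤ ε * matN E := mul_le_mul_of_nonneg_right hY ha0
  have h10 : matN Y * matN Y ≤ ε * ε := mul_le_mul hY hY hY0 hε0.le
  have h11 : ε * ε ≤ ε := by nlinarith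
  nlinarith

/-- The key analytic statement: the trace of an idempotent over `ℓ¹` vanishes. -/
theorem matT_idem_eq_zero (hL : IsLen L) (hψ : ∀ a b, ψ (a * b) = ψ a + ψ b)
    (hψL : ∀ a, |ψ a| ≤ L a) (hg : g₀ ∈ Subgroup.centralizer ({g₀} : Set G))
    (hne : ψ ⟨g₀, hg⟩ ≠ 0)
    (E : Matrix I I (l1 G)) (hE : E * E = E) : matT {g | IsConj g₀ g} E = 0 := by
  classical
  by_contra hτ
  set C : Set G := {g | IsConj g₀ g} with hC
  have hτ0 : 0 < ‖matT C E‖ := norm_pos_iff.mpr hτ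
  let S : NSetup (Matrix I I (CG G)) := theSetup hL hψ hψL hg
  have ha0 : 0 ≤ matN E := Finset.sum_nonneg fun _ _ => Finset.sum_nonneg fun _ _ => l1n_nonneg _
  have hu0 : 0 ≤ S.N1 1 := S.N1_nonneg _
  obtain ⟨ε, hε0, hε1, hεD, hεK, hεM⟩ := exists_eps ha0 hu0 hτ0
  obtain ⟨x0, hx0⟩ := exists_approx E hε0
  have hξ : S.N1 x0 ≤ matN E + 1 := by
    have h1 : S.N1 x0 = matN (iotaM x0) := (matN_iotaM x0).symm
    have h3 : E + (iotaM x0 - E) = iotaM x0 := by abel
    have h4 := matN_add_le E (iotaM x0 - E)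
    rw [h3] at h4
    rw [h1]
    linarith
  have hβ : S.N1 (x0 * x0 - x0) ≤ ε * (2 * matN E + 2) := by
    have h1 : S.N1 (x0 * x0 - x0) = matN (iotaM (x0 * x0 - x0)) := (matN_iotaM _).symm
    rw [h1, map_sub, map_mul]
    have h3 : E + (iotaM x0 - E) = iotaM x0 := by abel
    have := defect_bound hE hε0 hε1 hx0
    rwa [h3] at this
  obtain ⟨hc1, hc2, hc3, hc4⟩ := newton_conditions (S.N1_nonneg _) hu0 hξ hβ hεD hεK (S.N1_nonneg _)
  have hlam : 0 < ‖S.lam‖ := by
    rw [norm_pos_iff]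
    change ((ψ ⟨g₀, hg⟩ : ℝ) : ℂ) ≠ 0
    exact_mod_cast hne
  obtain ⟨x, hx1, hx2⟩ := S.newton x0 hc1 hc2 hc3 (‖S.lam‖ * (‖matT C E‖ / 4)) (by positivity)
  have hTx : ‖matT C (iotaM x)‖ ≤ ‖matT C E‖ / 4 := by
    rw [norm_mul] at hx2
    exact le_of_mul_le_mul_left hx2 hlam
  have hdist : matN (E - iotaM x) ≤ ε + 2 * (S.N1 1 + 2 * (matN E + 2)) * (ε * (2 * matN E + 2)) := by
    have h1 : E - iotaM x = -(iotaM x0 - E) + iotaM (x0 - x) := by
      rw [map_sub]; abel
    rw [h1]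
    have h2 := matN_add_le (-(iotaM x0 - E)) (iotaM (x0 - x))
    rw [matN_neg, matN_iotaM] at h2
    have h3 : mN (fun _ => (1 : ℝ)) (x0 - x) = mN (fun _ => (1 : ℝ)) (x - x0) := by
      have : x0 - x = -(x - x0) := by abel
      rw [this, mN_neg]
    rw [h3] at h2
    have h4 : mN (fun _ => (1 : ℝ)) (x - x0) = S.N1 (x - x0) := rfl
    rw [h4] at h2
    linarith
  have hE2 : matT C E = matT C (iotaM x) + matT C (E - iotaM x) := by
    rw [← map_add]
    congr 1
    abel
  have hfinal : ‖matT C E‖ ≤ ‖matT C E‖ / 4 + (ε + 2 * (S.N1 1 + 2 * (matN E + 2)) * (ε * (2 * matN E + 2))) := by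
    calc ‖matT C E‖ = ‖matT C (iotaM x) + matT C (E - iotaM x)‖ := by rw [← hE2]
      _ ≤ ‖matT C (iotaM x)‖ + ‖matT C (E - iotaM x)‖ := norm_add_le _ _
      _ ≤ _ := add_le_add hTx ((norm_matT_le C _).trans hdist)
  have h5 : ε + 2 * (S.N1 1 + 2 * (matN E + 2)) * (ε * (2 * matN E + 2)) =
      ε * (1 + 2 * (S.N1 1 + 2 * (matN E + 2)) * (2 * matN E + 2)) := by ring
  rw [h5] at hfinal
  linarith

end Vale.Agent.Lib.P184
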