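import Mathlib
import Vale.Agent.Lib.P184.Final

set_option linter.unusedSimpArgs false
set_option linter.unusedVariables false
set_option linter.unusedSectionVars false

open scoped BigOperators

/-! Conversion of the matrix statement to coefficient functions. -/

namespace Vale.Agent.Lib.P184

variable {G : Type*} [Group G] {q : ℕ}

/-- The matrix over `l1 G` with given coefficient functions. -/
def matOf (e : Fin q → Fin q → G → ℂ) (he : ∀ i j, Summable fun g => ‖e i j g‖) :
    Matrix (Fin q) (Fin q) (l1 G) := fun i j => ⟨e i j, he i j⟩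

lemma matOf_idem (e : Fin q → Fin q → G → ℂ) (he : ∀ i j, Summable fun g => ‖e i j g‖)
    (hid : ∀ i j g, ∑ k, ∑' h, e i k h * e k j (h⁻¹ * g) = e i j g) :
    matOf e he * matOf e he = matOf e he := by
  ext i j g
  rw [Matrix.mul_apply, l1_coe_sum, Finset.sum_apply]
  simp only [l1_mul_coe, cv, matOf]
  exact hid i j g

lemma matT_matOf (C : Set G) (e : Fin q → Fin q → G → ℂ) (he : ∀ i j, Summable fun g => ‖e i j g‖) :
    matT C (matOf e he) = ∑' g : C, ∑ i, e i i g := by
  classical
  rw [matT_apply, tsum_subtype C (fun g => ∑ i, e i i g)]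
  have hsi : ∀ i, Summable (C.indicator (e i i)) := fun i =>
    (Summable.of_norm (he i i)).indicator C
  have hind : ∀ g, C.indicator (fun g => ∑ i, e i i g) g = ∑ i, C.indicator (e i i) g := by
    intro g
    by_cases hg : g ∈ C
    · simp only [Set.indicator_of_mem hg]
    · simp only [Set.indicator_of_notMem hg, Finset.sum_const_zero]
  simp only [hind]
  rw [Summable.tsum_finsetSum (fun i _ => hsi i)]
  rfl

/-- The vanishing theorem in terms of coefficient functions. -/
theorem class_trace_vanishes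
    (e : Fin q → Fin q → G → ℂ)
    (he : ∀ i j, Summable fun g => ‖e i j g‖)
    (hid : ∀ i j g, ∑ k, ∑' h, e i k h * e k j (h⁻¹ * g) = e i j g)
    (L : G → ℝ) (hL1 : L 1 = 0) (hLinv : ∀ x, L x⁻¹ = L x)
    (hLmul : ∀ x y, L (x * y) ≤ L x + L y)
    (g₀ : G) (ψ : G → ℝ)
    (hψmul : ∀ a b, Commute a g₀ → Commute b g₀ → ψ (a * b) = ψ a + ψ b)
    (hψL : ∀ a, Commute a g₀ → |ψ a| ≤ L a)
    (hψg : ψ g₀ ≠ 0) :
    ∑' g : {g // IsConj g₀ g}, ∑ i, e i i g = 0 := by
  have hL : IsLen L := ⟨hL1, hLinv, hLmul⟩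
  have hcomm : ∀ a : Subgroup.centralizer ({g₀} : Set G), Commute (a : G) g₀ := by
    intro a
    exact Subgroup.mem_centralizer_singleton_iff.mp a.2
  let ψ' : Subgroup.centralizer ({g₀} : Set G) → ℝ := fun a => ψ a
  have hψ' : ∀ a b, ψ' (a * b) = ψ' a + ψ' b := fun a b =>
    hψmul a b (hcomm a) (hcomm b)
  have hψ'L : ∀ a, |ψ' a| ≤ L a := fun a => hψL a (hcomm a)
  have hg : g₀ ∈ Subgroup.centralizer ({g₀} : Set G) :=
    Subgroup.mem_centralizer_singleton_iff.mpr rfl
  have := matT_idem_eq_zero (ψ := ψ') hL hψ' hψ'L hg hψg (matOf e he) (matOf_idem e he hid)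
  rw [matT_matOf] at this
  exact this

end Vale.Agent.Lib.P184
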